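import Vale.Agent.P220.R2.H57.B.Leaf

/-!
The angle of the leafwise field at the top points.
-/

open Set Filter Topology
open scoped ContDiff Manifold

set_option linter.unusedSectionVars false

namespace Vale.Agent.P220.R2.H57

/-- A family of paths in the punctured plane that end in the right half plane: the whole lift of
the argument. -/
theorem angle_lift2 {F : Type} [PseudoMetricSpace F] {L : Set F} (hL : IsCompact L)
    {P : ℝ × F → ℂ} (hP : Continuous P) {S : ℝ} (hS : 0 ≤ S)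
    (hne : ∀ σ ∈ Icc (0 : ℝ) S, ∀ z ∈ L, P (σ, z) ≠ 0) (hre : ∀ z ∈ L, 0 < (P (S, z)).re) :
    ∃ ϑ : ℝ × F → ℝ, ContinuousOn ϑ (Icc 0 S ×ˢ L) ∧
      (∀ σ ∈ Icc 0 S, ∀ z ∈ L, P (σ, z) = ‖P (σ, z)‖ * Complex.exp (ϑ (σ, z) * Complex.I)) ∧
      ∀ z ∈ L, |ϑ (S, z)| < Real.pi / 2 := by
  obtain ⟨ϑ, h1, h2, h3⟩ := angle_lift (F := ℝ × F) (L := Icc 0 S ×ˢ L) (isCompact_Icc.prod hL)
    (P := fun x => P (x.2.1 + (S - x.2.1) * x.1, x.2.2)) (by fun_prop) (S := 1) zero_le_one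
    (fun r hr x hx => hne _ ⟨by nlinarith [hr.1, hr.2, hx.1.1, hx.1.2],
      by nlinarith [hr.1, hr.2, hx.1.1, hx.1.2]⟩ _ hx.2)
    (fun x hx => by
      have : x.1 + (S - x.1) * 1 = S := by ring
      simp only [this]
      exact hre _ hx.2)
  refine ⟨ϑ, h1, fun σ hσ z hz => ?_, fun z hz => ?_⟩
  · have := h2 (σ, z) ⟨hσ, hz⟩
    simpa using this
  · refine h3 (S, z) ⟨⟨hS, le_refl S⟩, hz⟩ fun r _ => ?_
    simp only [sub_self, zero_mul, add_zero]
    exact hre z hz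

variable {E : Type} [NormedAddCommGroup E] [InnerProductSpace ℝ E] [FiniteDimensional ℝ E]

namespace Base

variable {D : Base E}

namespace Leaf

variable (Λ : D.Leaf)

/-- The angle of the leafwise chords. -/
theorem exists_angle_chord : ∃ (S : ℝ) (ϑ : ℝ × (E × E) → ℝ), 0 < S ∧
    ContinuousOn ϑ (Icc 0 S ×ˢ D.L) ∧
    (∀ z ∈ D.L, Λ.u z = (Real.cos (ϑ (0, z)), Real.sin (ϑ (0, z)))) ∧
    (∀ z ∈ D.L, |ϑ (S, z)| < Real.pi / 2) ∧
    ∀ z ∈ D.L, ∀ σ ∈ Ioc 0 S, ∃ r > 0, Λ.T σ z = r * Real.cos (ϑ (σ, z)) ∧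
      D.h (Λ.ζ σ z) - D.h z = r * Real.sin (ϑ (σ, z)) := by
  obtain ⟨S, hS, hdrift⟩ := Λ.drift
  set w : E × E → ℂ := fun z => ⟨(Λ.u z).1, (Λ.u z).2⟩ with hw
  have hwc : Continuous w := by
    have h1 : w = fun z => Complex.equivRealProdCLM.symm (Λ.u z) := by
      funext z
      apply Complex.ext <;> simp [hw]
    rw [h1]
    exact Complex.equivRealProdCLM.symm.continuous.comp Λ.cont_u
  set P : ℝ × (E × E) → ℂ := fun x => ∫ r in (0 : ℝ)..1, w (Λ.ζ (r * x.1) x.2) with hP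
  have hPc : Continuous P := by
    have h1 : Continuous (Function.uncurry fun (x : ℝ × (E × E)) (r : ℝ) =>
        w (Λ.ζ (r * x.1) x.2)) := by
      have h2 : Continuous fun y : (ℝ × (E × E)) × ℝ => Λ.ζ (y.2 * y.1.1) y.1.2 :=
        Λ.cont_ζ.comp ((continuous_snd.mul (continuous_fst.comp continuous_fst)).prodMk
          (continuous_snd.comp continuous_fst))
      exact hwc.comp h2
    exact intervalIntegral.continuous_parametric_intervalIntegral_of_continuous' h1 0 1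
  -- the chord
  have hchord : ∀ z ∈ D.L, ∀ σ : ℝ, (σ : ℂ) * P (σ, z) =
      ⟨Λ.T σ z, D.h (Λ.ζ σ z) - D.h z⟩ := by
    intro z hz σ
    have h1 : ∀ s, HasDerivAt (fun s => (⟨Λ.T s z, D.h (Λ.ζ s z) - D.h z⟩ : ℂ)) (w (Λ.ζ s z)) s := by
      intro s
      have h2 := (Λ.hasDerivAt_T hz s).prodMk ((Λ.hasDerivAt_h hz s).sub_const (D.h z))
      have h3 := (Complex.equivRealProdCLM.symm.toContinuousLinearMap).hasFDerivAt.comp_hasDerivAt s h2
      have e1 : (fun s => (⟨Λ.T s z, D.h (Λ.ζ s z) - D.h z⟩ : ℂ)) =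
          (Complex.equivRealProdCLM.symm.toContinuousLinearMap) ∘
            fun s => (Λ.T s z, D.h (Λ.ζ s z) - D.h z) := by
        funext s
        apply Complex.ext <;> simp
      have e2 : w (Λ.ζ s z) = Complex.equivRealProdCLM.symm.toContinuousLinearMap
          ((Λ.u (Λ.ζ s z)).1, (Λ.u (Λ.ζ s z)).2) := by
        apply Complex.ext <;> simp [hw]
      rw [e1, e2]
      exact h3
    have h4 : Continuous fun s => w (Λ.ζ s z) :=
      hwc.comp (Λ.cont_ζ.comp (continuous_id.prodMk continuous_const))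
    have h5 := intervalIntegral.integral_eq_sub_of_hasDerivAt (a := 0) (b := σ)
      (fun s _ => h1 s) (h4.intervalIntegrable 0 σ)
    have h6 : (σ : ℂ) * P (σ, z) = ∫ s in (0 : ℝ)..σ, w (Λ.ζ s z) := by
      simp only [hP]
      have h7 := intervalIntegral.smul_integral_comp_mul_right (fun s => w (Λ.ζ s z)) σ
        (a := 0) (b := 1)
      rw [zero_mul, one_mul] at h7
      rw [← h7]
      simp
    rw [h6, h5, Λ.T_zero, Λ.hζ.zero, sub_self]
    have : (⟨0, 0⟩ : ℂ) = 0 := rfl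
    rw [this, sub_zero]
  have hP0 : ∀ z, P (0, z) = w z := by
    intro z
    simp [hP, Λ.hζ.zero]
  have hre : ∀ z ∈ D.L, ∀ σ : ℝ, 0 < σ → (P (σ, z)).re = Λ.T σ z / σ := by
    intro z hz σ hσ
    have h1 := congrArg Complex.re (hchord z hz σ)
    rw [Complex.re_ofReal_mul] at h1
    rw [eq_div_iff hσ.ne', mul_comm]
    exact h1
  have hne : ∀ σ ∈ Icc (0 : ℝ) S, ∀ z ∈ D.L, P (σ, z) ≠ 0 := by
    intro σ hσ z hz h0
    rcases eq_or_lt_of_le hσ.1 with h | h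
    · rw [← h, hP0] at h0
      have h1 := Λ.unit z hz
      have h2 : (Λ.u z).1 = 0 := congrArg Complex.re h0
      have h3 : (Λ.u z).2 = 0 := congrArg Complex.im h0
      rw [h2, h3] at h1
      simp at h1
    · have h1 := hchord z hz σ
      rw [h0, mul_zero] at h1
      have h2 : Λ.T σ z = 0 := (congrArg Complex.re h1).symm
      have h3 : D.h (Λ.ζ σ z) - D.h z = 0 := (congrArg Complex.im h1).symm
      exact Λ.no_return hz h.ne' h2 (sub_eq_zero.1 h3)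
  obtain ⟨ϑ, hϑc, hϑ1, hϑ2⟩ := angle_lift2 D.cL hPc hS.le hne (fun z hz => by
    rw [hre z hz S hS]
    exact div_pos (hdrift z hz S (le_refl S)) hS)
  refine ⟨S, ϑ, hS, hϑc, fun z hz => ?_, hϑ2, fun z hz σ hσ => ?_⟩
  · have h1 := hϑ1 0 ⟨le_refl 0, hS.le⟩ z hz
    rw [hP0] at h1
    have h2 : ‖w z‖ = 1 := by
      have h3 : ‖w z‖ ^ 2 = 1 := by
        rw [← Complex.normSq_eq_norm_sq, Complex.normSq_apply]
        have := Λ.unit z hz
        simp only [hw]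
        linarith
      have h4 : 0 ≤ ‖w z‖ := norm_nonneg _
      nlinarith
    rw [h2, Complex.ofReal_one, one_mul] at h1
    refine Prod.ext ?_ ?_
    · have := congrArg Complex.re h1
      rw [Complex.exp_ofReal_mul_I_re] at this
      exact this
    · have := congrArg Complex.im h1
      rw [Complex.exp_ofReal_mul_I_im] at this
      exact this
  · have hσ' : σ ∈ Icc 0 S := ⟨hσ.1.le, hσ.2⟩
    have h1 := hchord z hz σ
    rw [hϑ1 σ hσ' z hz] at h1
    have h2 : 0 < ‖P (σ, z)‖ := norm_pos_iff.2 (hne σ hσ' z hz)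
    refine ⟨σ * ‖P (σ, z)‖, mul_pos hσ.1 h2, ?_, ?_⟩
    · have h3 := congrArg Complex.re h1
      rw [Complex.re_ofReal_mul, Complex.re_ofReal_mul, Complex.exp_ofReal_mul_I_re] at h3
      rw [mul_assoc]
      exact h3.symm
    · have h3 := congrArg Complex.im h1
      rw [Complex.im_ofReal_mul, Complex.im_ofReal_mul, Complex.exp_ofReal_mul_I_im] at h3
      rw [mul_assoc]
      exact h3.symm

/-- A continuous real function on `[0, S]` that ends below `c` and avoids `c` on `(0, S]` starts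
at most at `c`. -/
theorem le_of_avoid {g : ℝ → ℝ} {S c : ℝ} (hS : 0 < S) (hg : ContinuousOn g (Icc 0 S))
    (h1 : g S < c) (h2 : ∀ σ ∈ Ioc 0 S, g σ ≠ c) : g 0 ≤ c := by
  by_contra hcon
  push Not at hcon
  -- near zero the function is larger than `c`
  have h3 : ∀ᶠ σ in 𝓝[Icc 0 S] (0 : ℝ), c < g σ :=
    (hg 0 ⟨le_refl 0, hS.le⟩).eventually (lt_mem_nhds hcon)
  have h4 : ∀ᶠ σ in 𝓝[>] (0 : ℝ), c < g σ := by
    have h5 : 𝓝[>] (0 : ℝ) ≤ 𝓝[Icc 0 S] (0 : ℝ) := by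
      rw [← nhdsWithin_Ioc_eq_nhdsGT hS]
      exact nhdsWithin_mono _ Ioc_subset_Icc_self
    exact h3.filter_mono h5
  have h6 : ∀ᶠ σ in 𝓝[>] (0 : ℝ), σ ∈ Ioc 0 S := Ioc_mem_nhdsGT hS
  obtain ⟨σ₀, hσ₀, hσ₀'⟩ := (h4.and h6).exists
  obtain ⟨σ, hσ, hσ'⟩ := intermediate_value_Icc' (a := σ₀) (b := S) hσ₀'.2
    (hg.mono (Icc_subset_Icc hσ₀'.1.le (le_refl S))) ⟨h1.le, hσ₀.le⟩
  exact h2 σ ⟨hσ₀'.1.trans_le hσ.1, hσ.2⟩ hσ'

/-- The angle of the leafwise field is at most `π / 2` in absolute value at top points. -/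
theorem exists_angle_top : ∃ θ : E × E → ℝ, ContinuousOn θ D.L ∧
    (∀ z ∈ D.L, Λ.u z = (Real.cos (θ z), Real.sin (θ z))) ∧
    ∀ z ∈ D.L, (Λ.u z).1 ≠ 0 → (∀ z' ∈ D.L, z'.1 = z.1 → D.h z' ≤ D.h z) →
      |θ z| < Real.pi / 2 := by
  obtain ⟨S, ϑ, hS, hϑc, hϑ0, hϑS, hϑ⟩ := Λ.exists_angle_chord
  have hpi := Real.pi_pos
  refine ⟨fun z => ϑ (0, z), ?_, hϑ0, fun z hz ha htop => ?_⟩
  · exact hϑc.comp (continuous_const.prodMk continuous_id).continuousOn
      (fun z hz => ⟨⟨le_refl 0, hS.le⟩, hz⟩)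
  have hle : ϑ (0, z) ≤ Real.pi / 2 := by
    refine le_of_avoid (g := fun σ => ϑ (σ, z)) hS ?_ (abs_lt.1 (hϑS z hz)).2 fun σ hσ h => ?_
    · exact hϑc.comp (continuous_id.prodMk continuous_const).continuousOn
        (fun σ hσ => ⟨hσ, hz⟩)
    · obtain ⟨r, hr, h1, h2⟩ := hϑ z hz σ hσ
      rw [h, Real.cos_pi_div_two, mul_zero] at h1
      rw [h, Real.sin_pi_div_two, mul_one] at h2
      have h3 : (Λ.ζ σ z).1 = z.1 := by rw [Λ.base hz, h1, D.hφ.zero]
      have := htop _ (Λ.ζ_mem hz σ) h3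
      linarith
  have hge : -(Real.pi / 2) ≤ ϑ (0, z) := by
    have key : -ϑ (0, z) ≤ Real.pi / 2 := by
      have h0 := le_of_avoid (g := fun σ => -ϑ (σ, Λ.ζ (-σ) z)) (c := Real.pi / 2) hS ?_ ?_ ?_
      · simpa [Λ.hζ.zero] using h0
      · refine ContinuousOn.neg (hϑc.comp (f := fun σ => (σ, Λ.ζ (-σ) z)) ?_
          (fun σ hσ => ⟨hσ, Λ.ζ_mem hz _⟩))
        exact (continuous_id.prodMk (Λ.cont_ζ.comp (continuous_neg.prodMk continuous_const))).continuousOn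
      · have := (abs_lt.1 (hϑS _ (Λ.ζ_mem hz (-S)))).1
        linarith
      · intro σ hσ h
        obtain ⟨r, hr, h1, h2⟩ := hϑ _ (Λ.ζ_mem hz (-σ)) σ hσ
        have h3 : ϑ (σ, Λ.ζ (-σ) z) = -(Real.pi / 2) := by linarith
        rw [h3, Real.cos_neg, Real.cos_pi_div_two, mul_zero] at h1
        have h4 : Λ.ζ σ (Λ.ζ (-σ) z) = z := by
          rw [← Λ.hζ.add, add_neg_cancel, Λ.hζ.zero]
        rw [h3, Real.sin_neg, Real.sin_pi_div_two, h4] at h2
        have h5 : (Λ.ζ (-σ) z).1 = z.1 := by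
          have h6 := Λ.base (Λ.ζ_mem hz (-σ)) σ
          rw [h4, h1, D.hφ.zero] at h6
          exact h6.symm
        have := htop _ (Λ.ζ_mem hz (-σ)) h5
        linarith
    linarith
  have h1 : Real.cos (ϑ (0, z)) ≠ 0 := by
    have := hϑ0 z hz
    rw [this] at ha
    exact ha
  refine abs_lt.2 ⟨lt_of_le_of_ne hge ?_, lt_of_le_of_ne hle ?_⟩
  · intro h
    simp only at h
    apply h1
    rw [← h, Real.cos_neg, Real.cos_pi_div_two]
  · intro h
    simp only at h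
    apply h1
    rw [h, Real.cos_pi_div_two]

end Leaf

end Base

end Vale.Agent.P220.R2.H57
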