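import Vale.Agent.P220.R2.H252.G.Push
import Vale.Agent.P220.R2.H252.Form
import Vale.Agent.P220.H64.ParInt

/-!
The lift of a leafwise isotopy to an exact isotopy
-/

open Set Filter Topology
open scoped ContDiff

set_option linter.unusedSectionVars false

namespace Vale.Agent.P220.R2.H57.Base.Push

open Vale.Agent.P220.R2.H57 Vale.Agent.P220.R2.H252

variable {E : Type} [NormedAddCommGroup E] [InnerProductSpace ℝ E] [FiniteDimensional ℝ E]
variable {D : Base E} {Λ : D.Leaf} (A : Base.Push Λ)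

include A

/-- The base point. -/
noncomputable def q (x : ℝ × (E × E)) : E := D.φ (A.τ x) x.2.1

/-- The derivative of the leafwise time. -/
noncomputable def al (x : ℝ × (E × E)) : ℝ := (Λ.u x.2).1 + fderiv ℝ A.τ x (0, Λ.Z x.2)

theorem q_smooth : ContDiff ℝ ∞ A.q :=
  D.hφ.smooth.comp (A.hτ.prodMk (contDiff_fst.comp contDiff_snd))

theorem al_smooth : ContDiff ℝ ∞ A.al :=
  (contDiff_fst.comp (Λ.hu.comp contDiff_snd)).add
    ((A.hτ.fderiv_right (m := ∞) (by simp)).clm_apply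
      (contDiff_const.prodMk (Λ.hZ.comp contDiff_snd)))

theorem q_hasFDerivAt (x : ℝ × (E × E)) : HasFDerivAt A.q (fderiv ℝ A.q x) x :=
  (A.q_smooth.differentiable (by simp) x).hasFDerivAt

theorem τ_hasFDerivAt (x : ℝ × (E × E)) : HasFDerivAt A.τ (fderiv ℝ A.τ x) x :=
  (A.hτ.differentiable (by simp) x).hasFDerivAt

theorem q_mem {z : E × E} (hz : z ∈ D.L) (s : ℝ) : A.q (s, z) ∈ D.Q :=
  D.hQ.flow_mem D.hX D.hφ D.tX (D.sub z hz) _

theorem flow_deriv (t : ℝ) (y : E) (a : ℝ) (b : E) :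
    fderiv ℝ (fun w : ℝ × E => D.φ w.1 w.2) (t, y) (a, b) =
      a • D.X (D.φ t y) + fderiv ℝ (D.φ t) y b := by
  have h1 : HasFDerivAt (fun w : ℝ × E => D.φ w.1 w.2)
      (fderiv ℝ (fun w : ℝ × E => D.φ w.1 w.2) (t, y)) (t, y) :=
    (D.hφ.smooth.differentiable (by simp) _).hasFDerivAt
  have h2 : HasDerivAt (fun s : ℝ => D.φ s y)
      (fderiv ℝ (fun w : ℝ × E => D.φ w.1 w.2) (t, y) (1, 0)) t := by
    have h0 : HasDerivAt (fun s : ℝ => (s, y)) ((1 : ℝ), (0 : E)) t :=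
      (hasDerivAt_id t).prodMk (hasDerivAt_const t y)
    have := HasFDerivAt.comp_hasDerivAt (l := fun w : ℝ × E => D.φ w.1 w.2) t h1 h0
    exact this
  have h3 := h2.unique (D.hφ.deriv t y)
  have h4 : HasFDerivAt (D.φ t) ((fderiv ℝ (fun w : ℝ × E => D.φ w.1 w.2) (t, y)).comp
      (ContinuousLinearMap.inr ℝ ℝ E)) y := by
    have h5 : HasFDerivAt (fun y : E => ((t, y) : ℝ × E)) (ContinuousLinearMap.inr ℝ ℝ E) y :=
      hasFDerivAt_prodMk_right t y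
    exact h1.comp y h5
  have h5 := congrArg (fun C => C b) h4.fderiv
  simp only [ContinuousLinearMap.comp_apply, ContinuousLinearMap.inr_apply] at h5
  rw [h5, ← h3, ← map_smul, ← map_add]
  simp

theorem q_deriv (x : ℝ × (E × E)) (v : ℝ × (E × E)) :
    fderiv ℝ A.q x v = fderiv ℝ A.τ x v • D.X (A.q x) + fderiv ℝ (D.φ (A.τ x)) x.2.1 v.2.1 := by
  have h1 : HasFDerivAt (fun w : ℝ × E => D.φ w.1 w.2)
      (fderiv ℝ (fun w : ℝ × E => D.φ w.1 w.2) (A.τ x, x.2.1)) (A.τ x, x.2.1) :=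
    (D.hφ.smooth.differentiable (by simp) _).hasFDerivAt
  have h2 : HasFDerivAt (fun x : ℝ × (E × E) => (A.τ x, x.2.1))
      ((fderiv ℝ A.τ x).prod ((ContinuousLinearMap.fst ℝ E E).comp
        (ContinuousLinearMap.snd ℝ ℝ (E × E)))) x :=
    (A.τ_hasFDerivAt x).prodMk (hasFDerivAt_fst.comp x hasFDerivAt_snd)
  have h3 : HasFDerivAt A.q ((fderiv ℝ (fun w : ℝ × E => D.φ w.1 w.2) (A.τ x, x.2.1)).comp
      ((fderiv ℝ A.τ x).prod ((ContinuousLinearMap.fst ℝ E E).comp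
        (ContinuousLinearMap.snd ℝ ℝ (E × E))))) x := by
    have := HasFDerivAt.comp (g := fun w : ℝ × E => D.φ w.1 w.2) x h1 h2
    exact this
  rw [h3.fderiv]
  simp only [ContinuousLinearMap.comp_apply, ContinuousLinearMap.prod_apply,
    ContinuousLinearMap.coe_fst', ContinuousLinearMap.coe_snd']
  rw [flow_deriv (D := D) A]
  rfl

theorem q_tan {z : E × E} (hz : z ∈ D.L) (s : ℝ) {v : E × E} (hv : v ∈ Tn D.ρ z) :
    fderiv ℝ A.q (s, z) (0, v) ∈ Tn D.r (A.q (s, z)) := by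
  rw [A.q_deriv]
  refine Submodule.add_mem _ (Submodule.smul_mem _ _ (D.tX _ (A.q_mem hz s))) ?_
  exact D.hQ.flow_tangent D.hX D.hφ D.tX (D.sub z hz) _ (D.tan_fst hz hv)

theorem q_Z {z : E × E} (hz : z ∈ D.L) (s : ℝ) :
    fderiv ℝ A.q (s, z) (0, Λ.Z z) = A.al (s, z) • D.X (A.q (s, z)) := by
  rw [A.q_deriv]
  simp only [Λ.Z_fst hz, map_smul, D.hφ.fderiv_vec]
  change _ + (Λ.u z).1 • D.X (A.q (s, z)) = _
  rw [← add_smul]
  simp only [al, add_comm]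

theorem q_ker {z : E × E} (hz : z ∈ D.L) (s : ℝ) {v : E × E} (hv : v ∈ Tn D.ρ z) {c : ℝ}
    (h : fderiv ℝ A.q (s, z) (0, v) + c • D.X (A.q (s, z)) = 0) :
    ∃ l : ℝ, v = l • Λ.Z z ∧ c = -(l * A.al (s, z)) := by
  rw [A.q_deriv] at h
  simp only at h
  have h1 : fderiv ℝ (D.φ (A.τ (s, z))) z.1 (v.1 + (fderiv ℝ A.τ (s, z) (0, v) + c) • D.X z.1) = 0 := by
    rw [map_add, map_smul, D.hφ.fderiv_vec, add_smul]
    rw [← h]
    simp only [q]
    abel
  have h2 := D.hφ.fderiv_injective _ _ _ h1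
  have h3 : v.1 = (-(fderiv ℝ A.τ (s, z) (0, v) + c)) • D.X z.1 := by
    rw [neg_smul]
    exact eq_neg_of_add_eq_zero_left h2
  obtain ⟨l, hl, hl'⟩ := Λ.leafwise hz hv h3
  refine ⟨l, hl', ?_⟩
  have h4 : fderiv ℝ A.τ (s, z) (0, v) = l * fderiv ℝ A.τ (s, z) (0, Λ.Z z) := by
    have h5 : ((0 : ℝ), v) = l • ((0 : ℝ), Λ.Z z) := by
      rw [hl']
      simp
    rw [h5, map_smul, smul_eq_mul]
  simp only [al]
  linarith

/-- The base map and `X` span the tangent space of `Q`. -/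
theorem exists_B {z : E × E} (hz : z ∈ D.L) (s : ℝ) :
    ∃ B : (Tn D.ρ z × ℝ) →ₗ[ℝ] Tn D.r (A.q (s, z)), Function.Surjective B ∧
      ∀ x, ((B x : Tn D.r (A.q (s, z))) : E) =
        fderiv ℝ A.q (s, z) (0, (x.1 : E × E)) + x.2 • D.X (A.q (s, z)) := by
  have hq := A.q_mem hz s
  let B : (Tn D.ρ z × ℝ) →ₗ[ℝ] Tn D.r (A.q (s, z)) :=
    { toFun := fun x => ⟨fderiv ℝ A.q (s, z) (0, (x.1 : E × E)) + x.2 • D.X (A.q (s, z)),
        Submodule.add_mem _ (A.q_tan hz s x.1.2) (Submodule.smul_mem _ _ (D.tX _ hq))⟩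
      map_add' := by
        intro x y
        refine Subtype.ext ?_
        have h1 : ((0 : ℝ), ((x.1 + y.1 : Tn D.ρ z) : E × E)) =
          (0, (x.1 : E × E)) + (0, (y.1 : E × E)) := by simp
        simp only [Prod.fst_add, Prod.snd_add, Submodule.coe_add, add_smul]
        simp only [Submodule.coe_add] at h1
        rw [h1, map_add]
        abel
      map_smul' := by
        intro c x
        refine Subtype.ext ?_
        have h1 : ((0 : ℝ), ((c • x.1 : Tn D.ρ z) : E × E)) = c • (0, (x.1 : E × E)) := by simp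
        simp only [Prod.smul_fst, Prod.smul_snd, Submodule.coe_smul, smul_eq_mul, RingHom.id_apply,
            smul_add, mul_smul]
        simp only [Submodule.coe_smul] at h1
        rw [h1, map_smul] }
  have hB : ∀ x, ((B x : Tn D.r (A.q (s, z))) : E) =
        fderiv ℝ A.q (s, z) (0, (x.1 : E × E)) + x.2 • D.X (A.q (s, z)) := fun x => rfl
  refine ⟨B, ?_, hB⟩
  have hker : Module.finrank ℝ (LinearMap.ker B) ≤ 1 := by
    have h0 : B (⟨Λ.Z z, Λ.Z_tan hz⟩, -A.al (s, z)) = 0 := by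
      refine Subtype.ext ?_
      rw [hB]
      simp only [A.q_Z hz s]
      rw [neg_smul, add_neg_cancel]
      rfl
    refine finrank_le_one ⟨(⟨Λ.Z z, Λ.Z_tan hz⟩, -A.al (s, z)), h0⟩ ?_
    rintro ⟨⟨v, c⟩, hx⟩
    have h1 : B (v, c) = 0 := hx
    have h2 := congrArg (fun y : Tn D.r (A.q (s, z)) => (y : E)) h1
    simp only [hB] at h2
    obtain ⟨l, hl, hl'⟩ := A.q_ker hz s v.2 h2
    refine ⟨l, ?_⟩
    refine Subtype.ext (Prod.ext (Subtype.ext ?_) ?_)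
    · exact hl.symm
    · change l • (-A.al (s, z)) = c
      rw [hl', smul_eq_mul]
      ring
  have h1 := LinearMap.finrank_range_add_finrank_ker B
  rw [Module.finrank_prod, Module.finrank_self, D.dL z hz] at h1
  have h2 := D.dQ _ hq
  have h3 := Submodule.finrank_le (LinearMap.range B)
  rw [h2] at h3
  rw [← LinearMap.range_eq_top]
  refine Submodule.eq_top_of_finrank_eq ?_
  rw [h2]
  omega

/-- Uniqueness of the momentum. -/
theorem p_unique {z : E × E} (hz : z ∈ D.L) (s : ℝ) {p : E} (hp : p ∈ Tn D.r (A.q (s, z)))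
    (h1 : ∀ v ∈ Tn D.ρ z, (inner ℝ p (fderiv ℝ A.q (s, z) (0, v)) : ℝ) = 0)
    (h2 : (inner ℝ p (D.X (A.q (s, z))) : ℝ) = 0) : p = 0 := by
  obtain ⟨B, hB, hB1⟩ := A.exists_B hz s
  obtain ⟨⟨v, c⟩, hx⟩ := hB ⟨p, hp⟩
  have h3 := hB1 (v, c)
  rw [hx] at h3
  have h4 : p = fderiv ℝ A.q (s, z) (0, (v : E × E)) + c • D.X (A.q (s, z)) := h3
  have h5 : (inner ℝ p p : ℝ) = 0 := by
    nth_rewrite 2 [h4]
    rw [inner_add_right, inner_smul_right, h1 _ v.2, h2]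
    ring
  exact inner_self_eq_zero.1 h5

/-- Existence of the momentum. -/
theorem p_exists {z : E × E} (hz : z ∈ D.L) (s : ℝ) (y₁ : (E × E) →L[ℝ] ℝ) (y₂ : ℝ)
    (h : y₁ (Λ.Z z) = A.al (s, z) * y₂) : ∃ p ∈ Tn D.r (A.q (s, z)),
      (∀ v ∈ Tn D.ρ z, (inner ℝ p (fderiv ℝ A.q (s, z) (0, v)) : ℝ) = y₁ v) ∧
        (inner ℝ p (D.X (A.q (s, z))) : ℝ) = y₂ := by
  obtain ⟨B, hB, hB1⟩ := A.exists_B hz s
  obtain ⟨C, hC⟩ := LinearMap.exists_rightInverse_of_surjective B (LinearMap.range_eq_top.2 hB)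
  let Ψ : (Tn D.ρ z × ℝ) →ₗ[ℝ] ℝ :=
    ((y₁ : (E × E) →ₗ[ℝ] ℝ).comp (Tn D.ρ z).subtype).comp (LinearMap.fst ℝ (Tn D.ρ z) ℝ) +
      y₂ • LinearMap.snd ℝ (Tn D.ρ z) ℝ
  have hΨ : ∀ x, Ψ x = y₁ (x.1 : E × E) + y₂ * x.2 := fun x => rfl
  have hker : ∀ x, B x = 0 → Ψ x = 0 := by
    rintro ⟨v, c⟩ hx
    have h2 := congrArg (fun y : Tn D.r (A.q (s, z)) => (y : E)) hx
    simp only [hB1] at h2
    obtain ⟨l, hl, hl'⟩ := A.q_ker hz s v.2 h2
    rw [hΨ]
    simp only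
    rw [hl, hl', map_smul, h, smul_eq_mul]
    ring
  have hfac : ∀ x, Ψ (C (B x)) = Ψ x := by
    intro x
    have h1 : B (x - C (B x)) = 0 := by
      have h2 : B (C (B x)) = B x := congrArg (fun L => L (B x)) hC
      rw [map_sub, h2, sub_self]
    have h2 := hker _ h1
    rw [map_sub] at h2
    linarith
  obtain ⟨p, hp, hp1⟩ := riesz (Tn D.r (A.q (s, z))) (Ψ.comp C)
  have hp2 : ∀ x, (inner ℝ p ((B x : Tn D.r (A.q (s, z))) : E) : ℝ) = Ψ x := by
    intro x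
    rw [hp1 _ (B x).2]
    exact hfac x
  refine ⟨p, hp, fun v hv => ?_, ?_⟩
  · have h1 := hp2 (⟨v, hv⟩, 0)
    rw [hB1, hΨ] at h1
    simpa using h1
  · have h1 := hp2 (0, 1)
    rw [hB1, hΨ] at h1
    have h2 : ((0 : ℝ), ((0 : Tn D.ρ z) : E × E)) = 0 := by simp
    simp only at h1
    rw [h2] at h1
    simpa using h1

/-- The correction of the momentum `p(X)`. -/
theorem exists_g : ∃ g : ℝ × E → ℝ, ContDiff ℝ ∞ g ∧ ∀ s, ∀ z ∈ D.L,
    g (s, A.q (1, z)) * A.al (1, z) = -(A.y (s, z) * A.al (s, z)) := by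
  have h1 : ContDiff ℝ ∞ (fun w : ℝ × E => A.al (1, A.κ w.2)) :=
    A.al_smooth.comp (contDiff_const.prodMk (A.hκ.comp contDiff_snd))
  have h2 : ContDiff ℝ ∞ (fun w : ℝ × E => A.al (w.1, A.κ w.2)) :=
    A.al_smooth.comp (contDiff_fst.prodMk (A.hκ.comp contDiff_snd))
  have h3 : ContDiff ℝ ∞ (fun w : ℝ × E => A.y (w.1, A.κ w.2)) :=
    A.hy.comp (contDiff_fst.prodMk (A.hκ.comp contDiff_snd))
  have hS : IsClosed ((univ : Set ℝ) ×ˢ D.Q) := isClosed_univ.prod D.hQ.isClosed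
  obtain ⟨g, hg, hg1⟩ := glue hS
    (fun w : ℝ × E => -(A.y (w.1, A.κ w.2) * A.al (w.1, A.κ w.2)) / A.al (1, A.κ w.2)) (by
    rintro ⟨s, x⟩ ⟨-, hx⟩
    refine ⟨{w : ℝ × E | 0 < A.al (1, A.κ w.2)}, ?_, _, ?_, fun _ _ _ => rfl⟩
    · refine (isOpen_lt continuous_const h1.continuous).mem_nhds ?_
      exact A.pos _ (A.κ_mem x hx)
    · exact (h3.mul h2).neg.contDiffOn.div h1.contDiffOn fun w hw => (ne_of_gt hw))
  refine ⟨g, hg, fun s z hz => ?_⟩
  have h4 := hg1 (s, A.q (1, z)) ⟨trivial, A.q_mem hz 1⟩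
  simp only at h4
  have h5 : A.κ (A.q (1, z)) = z := A.κ_left z hz
  rw [h5] at h4
  rw [h4, div_mul_cancel₀]
  exact (A.pos z hz).ne'

omit A in
/-- The primitive of a function along the orbits of `X`. -/
noncomputable def AA (D : Base E) (g : ℝ × E → ℝ) (y : (ℝ × E) × ℝ) : ℝ :=
  ∫ r in (0 : ℝ)..y.2, g (y.1.1, D.φ r y.1.2)

omit A in
theorem AA_smooth {g : ℝ × E → ℝ} (hg : ContDiff ℝ ∞ g) : ContDiff ℝ ∞ (AA D g) := by
  have h1 : ContDiff ℝ ∞ (fun y : (ℝ × E) × ℝ => g (y.1.1, D.φ y.2 y.1.2)) :=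
    hg.comp ((contDiff_fst.comp contDiff_fst).prodMk
      (D.hφ.smooth.comp (contDiff_snd.prodMk (contDiff_snd.comp contDiff_fst))))
  exact P220.H64.contDiff_primitive h1

omit A in
theorem AA_cont {g : ℝ × E → ℝ} (hg : ContDiff ℝ ∞ g) (s : ℝ) (x : E) :
    Continuous fun r => g (s, D.φ r x) :=
  hg.continuous.comp (continuous_const.prodMk
    (D.hφ.continuous.comp (continuous_id.prodMk continuous_const)))

omit A in
theorem AA_deriv {g : ℝ × E → ℝ} (hg : ContDiff ℝ ∞ g) (s : ℝ) (x : E) (t : ℝ) :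
    HasDerivAt (fun t => AA D g ((s, x), t)) (g (s, D.φ t x)) t := by
  have h1 := AA_cont (D := D) hg s x
  exact intervalIntegral.integral_hasDerivAt_right (h1.intervalIntegrable _ _)
    (h1.stronglyMeasurableAtFilter _ _) h1.continuousAt

omit A in
theorem AA_shift {g : ℝ × E → ℝ} (hg : ContDiff ℝ ∞ g) (s : ℝ) (x : E) (a t : ℝ) :
    AA D g ((s, D.φ a x), t) = AA D g ((s, x), a + t) - AA D g ((s, x), a) := by
  have h1 := AA_cont (D := D) hg s x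
  unfold AA
  simp only
  rw [intervalIntegral.integral_interval_sub_left (h1.intervalIntegrable _ _)
    (h1.intervalIntegrable _ _)]
  have h2 : ∀ r, D.φ r (D.φ a x) = D.φ (r + a) x := fun r => (D.hφ.add r a x).symm
  simp only [h2]
  rw [intervalIntegral.integral_comp_add_right (fun r => g (s, D.φ r x))]
  rw [zero_add, add_comm]

/-- The primitive of the first approximation. -/
theorem exists_f {g : ℝ × E → ℝ} (hg : ContDiff ℝ ∞ g) :
    ∃ f : ℝ × (E × E) → ℝ, ContDiff ℝ ∞ f ∧ (∀ z, f (1, z) = 0) ∧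
      (∀ s, ∀ z ∈ D.L, fderiv ℝ f (s, z) (0, Λ.Z z) =
        g (s, A.q (s, z)) * A.al (s, z) - g (s, A.q (1, z)) * A.al (1, z)) ∧
      (∀ F : E → ℝ, ContDiff ℝ ∞ F → (∀ x ∈ D.Q, fderiv ℝ F x (D.X x) = - g (0, x)) →
        ∀ z ∈ D.L, f (0, z) = F (A.q (1, z)) - F z.1) := by
  set f : ℝ × (E × E) → ℝ := fun x => AA D g ((x.1, x.2.1), A.τ x) -
    AA D g ((x.1, x.2.1), A.τ (1, x.2)) with hf
  have hfs : ContDiff ℝ ∞ f := by
    have h1 : ContDiff ℝ ∞ (fun x : ℝ × (E × E) => (x.1, x.2.1)) :=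
      contDiff_fst.prodMk (contDiff_fst.comp contDiff_snd)
    exact ((AA_smooth hg).comp (h1.prodMk A.hτ)).sub
      ((AA_smooth hg).comp (h1.prodMk (A.hτ.comp (contDiff_const.prodMk contDiff_snd))))
  refine ⟨f, hfs, fun z => by simp [hf], fun s z hz => ?_, fun F hF hFg z hz => ?_⟩
  · -- the curve
    have hc : HasDerivAt (fun σ : ℝ => ((s, Λ.ζ σ z) : ℝ × (E × E))) (0, Λ.Z z) 0 := by
      have := (hasDerivAt_const (0 : ℝ) s).prodMk (Λ.hζ.deriv 0 z)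
      rwa [Λ.hζ.zero] at this
    have hc0 : ((s, Λ.ζ 0 z) : ℝ × (E × E)) = (s, z) := by rw [Λ.hζ.zero]
    have h1 : HasDerivAt (fun σ : ℝ => f (s, Λ.ζ σ z)) (fderiv ℝ f (s, z) (0, Λ.Z z)) 0 := by
      have h2 : HasFDerivAt f (fderiv ℝ f (s, z)) (s, Λ.ζ 0 z) := by
        rw [hc0]
        exact (hfs.differentiable (by simp) _).hasFDerivAt
      exact HasFDerivAt.comp_hasDerivAt (l := f) (0 : ℝ) h2 hc
    have h2 : ∀ s' : ℝ, HasDerivAt (fun σ : ℝ => Λ.T σ z + A.τ (s', Λ.ζ σ z)) (A.al (s', z)) 0 := by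
      intro s'
      have h3 := Λ.hasDerivAt_T hz 0
      rw [Λ.hζ.zero] at h3
      have hc' : HasDerivAt (fun σ : ℝ => ((s', Λ.ζ σ z) : ℝ × (E × E))) (0, Λ.Z z) 0 := by
        have := (hasDerivAt_const (0 : ℝ) s').prodMk (Λ.hζ.deriv 0 z)
        rwa [Λ.hζ.zero] at this
      have h4 : HasFDerivAt A.τ (fderiv ℝ A.τ (s', z)) (s', Λ.ζ 0 z) := by
        rw [Λ.hζ.zero]
        exact A.τ_hasFDerivAt _
      exact h3.add (HasFDerivAt.comp_hasDerivAt (l := A.τ) (0 : ℝ) h4 hc')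
    have h3 : ∀ s' : ℝ, HasDerivAt (fun σ : ℝ => AA D g ((s, z.1), Λ.T σ z + A.τ (s', Λ.ζ σ z)))
        (g (s, A.q (s', z)) * A.al (s', z)) 0 := by
      intro s'
      have h4 := AA_deriv (D := D) hg s z.1 (Λ.T 0 z + A.τ (s', Λ.ζ 0 z))
      have h5 := HasDerivAt.comp (0 : ℝ) h4 (h2 s')
      simp only [Λ.T_zero, Λ.hζ.zero, zero_add] at h5
      exact h5
    have h4 := (h3 s).sub (h3 1)
    have h5 : (fun σ : ℝ => f (s, Λ.ζ σ z)) = fun σ =>
        AA D g ((s, z.1), Λ.T σ z + A.τ (s, Λ.ζ σ z)) -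
          AA D g ((s, z.1), Λ.T σ z + A.τ (1, Λ.ζ σ z)) := by
      funext σ
      simp only [hf]
      rw [Λ.base hz σ, AA_shift hg, AA_shift hg]
      ring
    rw [h5] at h1
    exact h1.unique h4
  · have h1 : ∀ t, HasDerivAt (fun t => F (D.φ t z.1)) (- g (0, D.φ t z.1)) t := by
      intro t
      have h2 : HasFDerivAt F (fderiv ℝ F (D.φ t z.1)) (D.φ t z.1) :=
        (hF.differentiable (by simp) _).hasFDerivAt
      have h3 := HasFDerivAt.comp_hasDerivAt (l := F) t h2 (D.hφ.deriv t z.1)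
      rw [hFg _ (D.hQ.flow_mem D.hX D.hφ D.tX (D.sub z hz) _)] at h3
      exact h3
    have h2 := AA_cont (D := D) hg 0 z.1
    have h3 := intervalIntegral.integral_eq_sub_of_hasDerivAt (a := 0) (b := A.τ (1, z))
      (fun t _ => h1 t) (h2.neg.intervalIntegrable _ _)
    simp only [hf, A.τ_zero z hz]
    unfold AA
    simp only
    rw [intervalIntegral.integral_same, zero_sub, ← intervalIntegral.integral_neg, h3, D.hφ.zero]
    rfl

/-- The momentum. -/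
theorem exists_p {g : ℝ × E → ℝ} (hg : ContDiff ℝ ∞ g)
    (hgL : ∀ s, ∀ z ∈ D.L, g (s, A.q (1, z)) * A.al (1, z) = -(A.y (s, z) * A.al (s, z)))
    {f : ℝ × (E × E) → ℝ} (hf : ContDiff ℝ ∞ f)
    (hfZ : ∀ s, ∀ z ∈ D.L, fderiv ℝ f (s, z) (0, Λ.Z z) =
        g (s, A.q (s, z)) * A.al (s, z) - g (s, A.q (1, z)) * A.al (1, z)) :
    ∃ p : ℝ × (E × E) → E, ContDiff ℝ ∞ p ∧ ∀ s, ∀ z ∈ D.L, p (s, z) ∈ Tn D.r (A.q (s, z)) ∧
      (∀ v ∈ Tn D.ρ z, (inner ℝ (p (s, z)) (fderiv ℝ A.q (s, z) (0, v)) : ℝ) =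
        fderiv ℝ f (s, z) (0, v)) ∧
      (inner ℝ (p (s, z)) (D.X (A.q (s, z))) : ℝ) = A.y (s, z) + g (s, A.q (s, z)) := by
  have hρ : ContDiff ℝ ∞ (fun x : ℝ × (E × E) => (ContinuousLinearMap.inr ℝ ℝ (E × E)).comp
      (fderiv ℝ D.ρ x.2)) :=
    contDiff_const.clm_comp ((D.hL.smooth.fderiv_right (m := ∞) (by simp)).comp contDiff_snd)
  have hR : ContDiff ℝ ∞ (fun x : ℝ × (E × E) => fderiv ℝ D.r (A.q x)) :=
    (D.hQ.smooth.fderiv_right (m := ∞) (by simp)).comp A.q_smooth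
  have hM : ContDiff ℝ ∞ (fun x : ℝ × (E × E) => (fderiv ℝ A.q x).comp
      ((ContinuousLinearMap.inr ℝ ℝ (E × E)).comp (fderiv ℝ D.ρ x.2))) :=
    (A.q_smooth.fderiv_right (m := ∞) (by simp)).clm_comp hρ
  have hy : ContDiff ℝ ∞ (fun x : ℝ × (E × E) => (fderiv ℝ f x).comp
      ((ContinuousLinearMap.inr ℝ ℝ (E × E)).comp (fderiv ℝ D.ρ x.2))) :=
    (hf.fderiv_right (m := ∞) (by simp)).clm_comp hρ
  have hN : ContDiff ℝ ∞ (fun x : ℝ × (E × E) => D.X (A.q x)) := D.hX.comp A.q_smooth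
  have hy' : ContDiff ℝ ∞ (fun x : ℝ × (E × E) => A.y x + g (x.1, A.q x)) :=
    A.hy.add (hg.comp (contDiff_fst.prodMk A.q_smooth))
  have hS : IsClosed ((univ : Set ℝ) ×ˢ D.L) := isClosed_univ.prod D.hL.isClosed
  obtain ⟨p, hp, hp1⟩ := linSolve3 hS hR hM hN hy hy' (by
    rintro ⟨s, z⟩ ⟨-, hz⟩ p hp h1 h2
    refine A.p_unique hz s hp (fun v hv => ?_) h2
    have h3 := h1 v
    simp only [ContinuousLinearMap.comp_apply, ContinuousLinearMap.inr_apply] at h3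
    rwa [mem_Tn.1 hv] at h3) (by
    rintro ⟨s, z⟩ ⟨-, hz⟩
    obtain ⟨p, hp, h1, h2⟩ := A.p_exists hz s
      ((fderiv ℝ f (s, z)).comp (ContinuousLinearMap.inr ℝ ℝ (E × E)))
      (A.y (s, z) + g (s, A.q (s, z))) (by
        simp only [ContinuousLinearMap.comp_apply, ContinuousLinearMap.inr_apply]
        rw [hfZ s z hz, hgL s z hz]
        ring)
    refine ⟨p, hp, fun v => ?_, h2⟩
    exact h1 _ (D.hL.fderiv_mem hz v))
  refine ⟨p, hp, fun s z hz => ?_⟩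
  obtain ⟨h1, h2, h3⟩ := hp1 (s, z) ⟨trivial, hz⟩
  refine ⟨h1, fun v hv => ?_, h3⟩
  have h4 := h2 v
  simp only [ContinuousLinearMap.comp_apply, ContinuousLinearMap.inr_apply] at h4
  rwa [mem_Tn.1 hv] at h4

omit A in
/-- The gradient on `Q`. -/
theorem exists_grad (D : Base E) {F : E → ℝ} (hF : ContDiff ℝ ∞ F) :
    ∃ G : E → E, ContDiff ℝ ∞ G ∧ ∀ x ∈ D.Q, G x ∈ Tn D.r x ∧
      ∀ v ∈ Tn D.r x, (inner ℝ (G x) v : ℝ) = fderiv ℝ F x v := by
  have hR : ContDiff ℝ ∞ (fderiv ℝ D.r) := D.hQ.smooth.fderiv_right (m := ∞) (by simp)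
  have hy : ContDiff ℝ ∞ (fun x => (fderiv ℝ F x).comp (fderiv ℝ D.r x)) :=
    (hF.fderiv_right (m := ∞) (by simp)).clm_comp hR
  obtain ⟨G, hG, hG1⟩ := linSolve3 D.hQ.isClosed hR hR (N := fun _ => (0 : E)) contDiff_const hy
    (y' := fun _ => (0 : ℝ)) contDiff_const (by
    intro x hx p hp h1 _
    have h2 := h1 p
    rw [hp] at h2
    exact inner_self_eq_zero.1 h2) (by
    intro x hx
    obtain ⟨p, hp, hp1⟩ := riesz (Tn D.r x) ((fderiv ℝ F x : E →ₗ[ℝ] ℝ).comp (Tn D.r x).subtype)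
    refine ⟨p, hp, fun v => ?_, by simp⟩
    exact hp1 _ (D.hQ.fderiv_mem hx v))
  refine ⟨G, hG, fun x hx => ?_⟩
  obtain ⟨h1, h2, -⟩ := hG1 x hx
  refine ⟨h1, fun v hv => ?_⟩
  have h4 := h2 v
  simp only [ContinuousLinearMap.comp_apply] at h4
  rwa [mem_Tn.1 hv] at h4

/-- The derivative of the base map at time zero. -/
theorem q_zero_deriv {z : E × E} (hz : z ∈ D.L) {v : E × E} (hv : v ∈ Tn D.ρ z) :
    fderiv ℝ A.τ (0, z) (0, v) = 0 ∧ A.q (0, z) = z.1 ∧ fderiv ℝ A.q (0, z) (0, v) = v.1 := by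
  rw [← D.hL.mem_Tan hz] at hv
  obtain ⟨c, hc, hcL, h0, hv⟩ := hv
  have h1 : HasDerivAt c v 0 := by
    rw [← hv]
    exact (hc.differentiable (by simp) 0).hasDerivAt
  have h2 : HasDerivAt (fun σ : ℝ => (((0 : ℝ), c σ) : ℝ × (E × E))) (0, v) 0 :=
    (hasDerivAt_const (0 : ℝ) (0 : ℝ)).prodMk h1
  have hq0 : ∀ w ∈ D.L, A.q (0, w) = w.1 := fun w hw => by
    simp only [q, A.τ_zero w hw, D.hφ.zero]
  refine ⟨?_, hq0 z hz, ?_⟩
  · have h3 : HasFDerivAt A.τ (fderiv ℝ A.τ (0, z)) (0, c 0) := by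
      rw [h0]
      exact A.τ_hasFDerivAt _
    have h4 := HasFDerivAt.comp_hasDerivAt (l := A.τ) (0 : ℝ) h3 h2
    have h5 : (A.τ ∘ fun σ : ℝ => (((0 : ℝ), c σ) : ℝ × (E × E))) = fun _ => 0 := by
      funext σ
      exact A.τ_zero _ (hcL σ)
    rw [h5] at h4
    exact h4.unique (hasDerivAt_const _ _)
  · have h3 : HasFDerivAt A.q (fderiv ℝ A.q (0, z)) (0, c 0) := by
      rw [h0]
      exact A.q_hasFDerivAt _
    have h4 := HasFDerivAt.comp_hasDerivAt (l := A.q) (0 : ℝ) h3 h2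
    have h5 : (A.q ∘ fun σ : ℝ => (((0 : ℝ), c σ) : ℝ × (E × E))) = fun σ => (c σ).1 := by
      funext σ
      exact hq0 _ (hcL σ)
    rw [h5] at h4
    exact h4.unique h1.fst

/-- The derivative of the primitive of `L`, transported to `Q`, along `X`. -/
theorem F_X {g : ℝ × E → ℝ}
    (hgL : ∀ s, ∀ z ∈ D.L, g (s, A.q (1, z)) * A.al (1, z) = -(A.y (s, z) * A.al (s, z))) :
    ∀ x ∈ D.Q, fderiv ℝ (fun x => D.f (A.κ x)) x (D.X x) = - g (0, x) := by
  intro x hx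
  set z := A.κ x with hzdef
  have hz : z ∈ D.L := A.κ_mem x hx
  have hqx : A.q (1, z) = x := A.κ_right x hx
  have hFs : ContDiff ℝ ∞ (fun x => D.f (A.κ x)) := D.hf.comp A.hκ
  -- along the flow of `Z`
  have hc : HasDerivAt (fun σ : ℝ => (((1 : ℝ), Λ.ζ σ z) : ℝ × (E × E))) (0, Λ.Z z) 0 := by
    have := (hasDerivAt_const (0 : ℝ) (1 : ℝ)).prodMk (Λ.hζ.deriv 0 z)
    rwa [Λ.hζ.zero] at this
  have h1 : HasDerivAt (fun σ : ℝ => A.q (1, Λ.ζ σ z)) (A.al (1, z) • D.X x) 0 := by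
    have h2 : HasFDerivAt A.q (fderiv ℝ A.q (1, z)) (1, Λ.ζ 0 z) := by
      rw [Λ.hζ.zero]
      exact A.q_hasFDerivAt _
    have h3 := HasFDerivAt.comp_hasDerivAt (l := A.q) (0 : ℝ) h2 hc
    rw [A.q_Z hz 1, hqx] at h3
    exact h3
  have h2 : HasDerivAt (fun σ : ℝ => D.f (A.κ (A.q (1, Λ.ζ σ z))))
      (fderiv ℝ (fun x => D.f (A.κ x)) x (A.al (1, z) • D.X x)) 0 := by
    have h3 : HasFDerivAt (fun x => D.f (A.κ x)) (fderiv ℝ (fun x => D.f (A.κ x)) x)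
        (A.q (1, Λ.ζ 0 z)) := by
      rw [Λ.hζ.zero, hqx]
      exact (hFs.differentiable (by simp) _).hasFDerivAt
    exact HasFDerivAt.comp_hasDerivAt (l := fun x => D.f (A.κ x)) (0 : ℝ) h3 h1
  have h3 : (fun σ : ℝ => D.f (A.κ (A.q (1, Λ.ζ σ z)))) = fun σ => D.f (Λ.ζ σ z) := by
    funext σ
    rw [show A.κ (A.q (1, Λ.ζ σ z)) = Λ.ζ σ z from A.κ_left _ (Λ.ζ_mem hz σ)]
  rw [h3] at h2
  have h4 : HasDerivAt (fun σ => D.f (Λ.ζ σ z)) (fderiv ℝ D.f z (Λ.Z z)) 0 := by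
    have h5 : HasFDerivAt D.f (fderiv ℝ D.f z) (Λ.ζ 0 z) := by
      rw [Λ.hζ.zero]
      exact (D.hf.differentiable (by simp) _).hasFDerivAt
    have h6 := Λ.hζ.deriv 0 z
    rw [Λ.hζ.zero] at h6
    exact HasFDerivAt.comp_hasDerivAt (l := D.f) (0 : ℝ) h5 h6
  have h5 := h2.unique h4
  rw [D.exact z hz _ (Λ.Z_tan hz), Λ.Z_fst hz, inner_smul_right, map_smul, smul_eq_mul] at h5
  have h6 := hgL 0 z hz
  rw [hqx, A.y_zero z hz] at h6
  have h7 : A.al (0, z) = (Λ.u z).1 := by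
    simp only [al, (A.q_zero_deriv hz (Λ.Z_tan hz)).1, add_zero]
  rw [h7] at h6
  have h8 : A.al (1, z) ≠ 0 := (A.pos z hz).ne'
  have h9 : D.h z = inner ℝ z.2 (D.X z.1) := rfl
  rw [h9] at h6
  refine mul_left_cancel₀ h8 ?_
  rw [h5]
  linear_combination h6

end Vale.Agent.P220.R2.H57.Base.Push

namespace Vale.Agent.P220.R2.H252

open Vale.Agent.P220.R2.H57

variable {E : Type} [NormedAddCommGroup E] [InnerProductSpace ℝ E] [FiniteDimensional ℝ E]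

theorem exact_isotopy_base {D : Base E} {Λ : D.Leaf} (A : Base.Push Λ) :
    ∃ (ι : ℝ × (E × E) → E × E) (f : ℝ × (E × E) → ℝ), ContDiff ℝ ∞ ι ∧ ContDiff ℝ ∞ f ∧
      (∀ s, ∀ z ∈ D.L, ι (s, z) ∈ Cot D.Q) ∧
      (∀ s, ∀ z ∈ D.L, ∀ z' ∈ D.L, ι (s, z) = ι (s, z') → z = z') ∧
      (∀ s, ∀ z ∈ D.L, ∀ v ∈ Tn D.ρ z, fderiv ℝ ι (s, z) (0, v) = 0 → v = 0) ∧
      (∀ s, ∀ z ∈ D.L, ∀ v ∈ Tn D.ρ z,
        fderiv ℝ f (s, z) (0, v) = inner ℝ (ι (s, z)).2 (fderiv ℝ ι (s, z) (0, v)).1) ∧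
      (∀ z ∈ D.L, ι (0, z) = z) ∧ ∀ w : E × E, w.1 ∈ D.Q ∧ w.2 = 0 ↔ ∃ z ∈ D.L, ι (1, z) = w := by
  obtain ⟨g, hg, hgL⟩ := A.exists_g
  obtain ⟨f₀, hf₀, hf1, hfZ, hf0⟩ := A.exists_f hg
  obtain ⟨p, hp, hpL⟩ := A.exists_p hg hgL hf₀ hfZ
  set F : E → ℝ := fun x => D.f (A.κ x) with hFdef
  have hF : ContDiff ℝ ∞ F := D.hf.comp A.hκ
  have hFX := A.F_X hgL
  obtain ⟨G, hG, hGQ⟩ := Base.Push.exists_grad D hF
  set P : ℝ × (E × E) → E := fun x => p x + (1 - x.1) • G (A.q x) with hP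
  have hPs : ContDiff ℝ ∞ P :=
    hp.add ((contDiff_const.sub contDiff_fst).smul (hG.comp A.q_smooth))
  have hιs : ContDiff ℝ ∞ (fun x : ℝ × (E × E) => (A.q x, P x)) := A.q_smooth.prodMk hPs
  set f : ℝ × (E × E) → ℝ := fun x => f₀ x + (1 - x.1) * F (A.q x) with hf
  have hfs : ContDiff ℝ ∞ f :=
    hf₀.add ((contDiff_const.sub contDiff_fst).mul (hF.comp A.q_smooth))
  have hιd : ∀ x v, fderiv ℝ (fun x : ℝ × (E × E) => (A.q x, P x)) x v =
      (fderiv ℝ A.q x v, fderiv ℝ P x v) := by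
    intro x v
    have h1 : HasFDerivAt (fun x : ℝ × (E × E) => (A.q x, P x))
        ((fderiv ℝ A.q x).prod (fderiv ℝ P x)) x :=
      (A.q_hasFDerivAt x).prodMk (hPs.differentiable (by simp) x).hasFDerivAt
    rw [h1.fderiv]
    rfl
  have hPt : ∀ s, ∀ z ∈ D.L, P (s, z) ∈ Tn D.r (A.q (s, z)) := fun s z hz =>
    Submodule.add_mem _ (hpL s z hz).1 (Submodule.smul_mem _ _ (hGQ _ (A.q_mem hz s)).1)
  -- the momentum `p(X)`
  have hPX : ∀ s, ∀ z ∈ D.L, A.y (s, z) = inner ℝ (P (s, z)) (D.X (A.q (s, z))) -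
      (g (s, A.q (s, z)) + (1 - s) * fderiv ℝ F (A.q (s, z)) (D.X (A.q (s, z)))) := by
    intro s z hz
    have hq := A.q_mem hz s
    simp only [hP]
    rw [inner_add_left, inner_smul_left, (hpL s z hz).2.2, (hGQ _ hq).2 _ (D.tX _ hq)]
    simp
  have hp1 : ∀ z ∈ D.L, p (1, z) = 0 := by
    intro z hz
    obtain ⟨h1, h2, h3⟩ := hpL 1 z hz
    refine A.p_unique hz 1 h1 (fun v hv => ?_) ?_
    · rw [h2 v hv]
      -- `f₀ (1, ·) = 0`
      have h4 : HasDerivAt (fun t : ℝ => f₀ ((1, z) + t • ((0 : ℝ), v)))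
          (fderiv ℝ f₀ (1, z) (0, v)) 0 := by
        have h5 : HasDerivAt (fun t : ℝ => ((1 : ℝ), z) + t • ((0 : ℝ), v)) ((0 : ℝ), v) 0 := by
          have := ((hasDerivAt_id (0 : ℝ)).smul_const ((0 : ℝ), v)).const_add ((1 : ℝ), z)
          simpa using this
        have h6 : HasFDerivAt f₀ (fderiv ℝ f₀ (1, z)) (((1 : ℝ), z) + (0 : ℝ) • ((0 : ℝ), v)) := by
          simpa using (hf₀.differentiable (by simp) (1, z)).hasFDerivAt
        exact HasFDerivAt.comp_hasDerivAt (l := f₀) (0 : ℝ) h6 h5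
      have h5 : (fun t : ℝ => f₀ ((1, z) + t • ((0 : ℝ), v))) = fun _ => 0 := by
        funext t
        have : ((1 : ℝ), z) + t • ((0 : ℝ), v) = (1, z + t • v) := by simp
        rw [this, hf1]
      rw [h5] at h4
      exact h4.unique (hasDerivAt_const _ _)
    · rw [h3]
      have h4 := hgL 1 z hz
      have h5 : A.al (1, z) ≠ 0 := (A.pos z hz).ne'
      refine mul_right_cancel₀ h5 ?_
      rw [zero_mul]
      linear_combination h4
  have hq0 : ∀ z ∈ D.L, A.q (0, z) = z.1 := fun z hz => by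
    simp only [Base.Push.q, A.τ_zero z hz, D.hφ.zero]
  have hp0 : ∀ z ∈ D.L, P (0, z) = z.2 := by
    intro z hz
    obtain ⟨h1, h2, h3⟩ := hpL 0 z hz
    rw [← sub_eq_zero]
    refine A.p_unique hz 0 (Submodule.sub_mem _ (hPt 0 z hz) ?_) (fun v hv => ?_) ?_
    · rw [hq0 z hz]
      exact D.sub2 z hz
    · obtain ⟨-, -, h4⟩ := A.q_zero_deriv hz hv
      have h5 : P (0, z) = p (0, z) + G (A.q (0, z)) := by simp [hP]
      rw [h5, inner_sub_left, inner_add_left, h2 v hv,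
        (hGQ _ (A.q_mem hz 0)).2 _ (A.q_tan hz 0 hv), h4, hq0 z hz]
      -- the derivative of `f₀ (0, ·)` on `L`
      have hv' := (D.hL.mem_Tan hz).2 hv
      obtain ⟨c, hc, hcL, h0, hcv⟩ := hv'
      have h6 : HasDerivAt c v 0 := by
        rw [← hcv]
        exact (hc.differentiable (by simp) 0).hasDerivAt
      have h7 : HasDerivAt (fun σ : ℝ => f₀ (0, c σ)) (fderiv ℝ f₀ (0, z) (0, v)) 0 := by
        have h8 : HasFDerivAt f₀ (fderiv ℝ f₀ (0, z)) (0, c 0) := by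
          rw [h0]
          exact (hf₀.differentiable (by simp) _).hasFDerivAt
        exact HasFDerivAt.comp_hasDerivAt (l := f₀) (0 : ℝ) h8
          ((hasDerivAt_const (0 : ℝ) (0 : ℝ)).prodMk h6)
      have h8 : (fun σ : ℝ => f₀ (0, c σ)) = fun σ => D.f (c σ) - F (c σ).1 := by
        funext σ
        rw [hf0 F hF hFX _ (hcL σ)]
        simp only [hFdef]
        rw [show A.κ (A.q (1, c σ)) = c σ from A.κ_left _ (hcL σ)]
      have h9 : HasDerivAt (fun σ : ℝ => D.f (c σ) - F (c σ).1)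
          (fderiv ℝ D.f z v - fderiv ℝ F z.1 v.1) 0 := by
        have h10 : HasFDerivAt D.f (fderiv ℝ D.f z) (c 0) := by
          rw [h0]
          exact (D.hf.differentiable (by simp) _).hasFDerivAt
        have h11 : HasFDerivAt F (fderiv ℝ F z.1) (c 0).1 := by
          rw [h0]
          exact (hF.differentiable (by simp) _).hasFDerivAt
        exact (HasFDerivAt.comp_hasDerivAt (l := D.f) (0 : ℝ) h10 h6).sub
          (HasFDerivAt.comp_hasDerivAt (l := F) (0 : ℝ) h11 h6.fst)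
      rw [h8] at h7
      rw [h7.unique h9, D.exact z hz v hv]
      ring
    · rw [inner_sub_left]
      have h4 := hPX 0 z hz
      rw [hFX _ (A.q_mem hz 0), A.y_zero z hz] at h4
      have h5 : D.h z = inner ℝ z.2 (D.X (A.q (0, z))) := by
        rw [hq0 z hz]
        rfl
      rw [← h5]
      linarith
  refine ⟨fun x => (A.q x, P x), f, hιs, hfs, fun s z hz => ?_, fun s z hz z' hz' h => ?_,
    fun s z hz v hv h => ?_, fun s z hz v hv => ?_, fun z hz => ?_, fun w => ?_⟩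
  · refine ⟨A.q_mem hz s, ?_⟩
    exact (D.hQ.mem_Tan (A.q_mem hz s)).2 (hPt s z hz)
  · have h1 : A.q (s, z) = A.q (s, z') := congrArg Prod.fst h
    have h2 : P (s, z) = P (s, z') := congrArg Prod.snd h
    refine A.inj s z hz z' hz' h1 ?_
    rw [hPX s z hz, hPX s z' hz', h1, h2]
  · rw [hιd] at h
    have h1 : fderiv ℝ A.q (s, z) (0, v) = 0 := congrArg Prod.fst h
    have h2 : fderiv ℝ P (s, z) (0, v) = 0 := congrArg Prod.snd h
    obtain ⟨l, hl, hl'⟩ := A.q_ker hz s hv (c := 0) (by rw [h1, zero_smul, add_zero])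
    by_cases hl0 : l = 0
    · rw [hl, hl0, zero_smul]
    exfalso
    have hal : A.al (s, z) = 0 := by
      have : l * A.al (s, z) = 0 := by linarith
      exact (mul_eq_zero.1 this).resolve_left hl0
    refine A.ne s z hz hal ?_
    -- the derivative of `y`
    have hv' := (D.hL.mem_Tan hz).2 hv
    obtain ⟨c, hc, hcL, h0, hcv⟩ := hv'
    have h6 : HasDerivAt c v 0 := by
      rw [← hcv]
      exact (hc.differentiable (by simp) 0).hasDerivAt
    have h7 : HasDerivAt (fun σ : ℝ => ((s, c σ) : ℝ × (E × E))) (0, v) 0 :=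
      (hasDerivAt_const (0 : ℝ) s).prodMk h6
    have h8 : HasDerivAt (fun σ : ℝ => A.y (s, c σ)) (fderiv ℝ A.y (s, z) (0, v)) 0 := by
      have h9 : HasFDerivAt A.y (fderiv ℝ A.y (s, z)) (s, c 0) := by
        rw [h0]
        exact (A.hy.differentiable (by simp) _).hasFDerivAt
      exact HasFDerivAt.comp_hasDerivAt (l := A.y) (0 : ℝ) h9 h7
    set Ψ : E × E → ℝ := fun w => inner ℝ w.2 (D.X w.1) -
      (g (s, w.1) + (1 - s) * fderiv ℝ F w.1 (D.X w.1)) with hΨ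
    have hΨs : ContDiff ℝ ∞ Ψ := by
      have e1 : ContDiff ℝ ∞ (fun w : E × E => D.X w.1) := D.hX.comp contDiff_fst
      have e2 : ContDiff ℝ ∞ (fun w : E × E => g (s, w.1)) :=
        hg.comp (contDiff_const.prodMk contDiff_fst)
      have e3 : ContDiff ℝ ∞ (fun w : E × E => fderiv ℝ F w.1 (D.X w.1)) :=
        ((hF.fderiv_right (m := ∞) (by simp)).comp contDiff_fst).clm_apply e1
      exact (contDiff_snd.inner ℝ e1).sub (e2.add (contDiff_const.mul e3))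
    have h9 : HasDerivAt (fun σ : ℝ => ((A.q (s, c σ), P (s, c σ)) : E × E)) 0 0 := by
      have h10 : HasFDerivAt (fun x : ℝ × (E × E) => (A.q x, P x))
          (fderiv ℝ (fun x : ℝ × (E × E) => (A.q x, P x)) (s, z)) (s, c 0) := by
        rw [h0]
        exact (hιs.differentiable (by simp) _).hasFDerivAt
      have h11 := HasFDerivAt.comp_hasDerivAt (l := fun x : ℝ × (E × E) => (A.q x, P x))
        (0 : ℝ) h10 h7
      rw [hιd, h1, h2] at h11
      exact h11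
    have h10 : HasDerivAt (fun σ : ℝ => Ψ (A.q (s, c σ), P (s, c σ))) 0 0 := by
      have h11 : HasFDerivAt Ψ (fderiv ℝ Ψ (A.q (s, c 0), P (s, c 0))) (A.q (s, c 0), P (s, c 0)) :=
        (hΨs.differentiable (by simp) _).hasFDerivAt
      have h12 := HasFDerivAt.comp_hasDerivAt (l := Ψ) (0 : ℝ) h11 h9
      rw [map_zero] at h12
      exact h12
    have h11 : (fun σ : ℝ => A.y (s, c σ)) = fun σ => Ψ (A.q (s, c σ), P (s, c σ)) := by
      funext σ
      rw [hPX s _ (hcL σ)]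
    rw [h11] at h8
    have h12 := h8.unique h10
    have h13 : ((0 : ℝ), v) = l • ((0 : ℝ), Λ.Z z) := by
      rw [hl]
      simp
    rw [h13, map_smul, smul_eq_mul] at h12
    exact (mul_eq_zero.1 h12).resolve_left hl0
  · rw [hιd]
    simp only
    have h1 : HasDerivAt (fun t : ℝ => ((s, z + t • v) : ℝ × (E × E))) (0, v) 0 := by
      have h2 : HasDerivAt (fun t : ℝ => z + t • v) v 0 := by
        have := ((hasDerivAt_id (0 : ℝ)).smul_const v).const_add z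
        simpa using this
      exact (hasDerivAt_const (0 : ℝ) s).prodMk h2
    have hz0 : ((s, z + (0 : ℝ) • v) : ℝ × (E × E)) = (s, z) := by simp
    have h2 : HasDerivAt (fun t : ℝ => f (s, z + t • v)) (fderiv ℝ f (s, z) (0, v)) 0 := by
      have h3 : HasFDerivAt f (fderiv ℝ f (s, z)) (s, z + (0 : ℝ) • v) := by
        rw [hz0]
        exact (hfs.differentiable (by simp) _).hasFDerivAt
      exact HasFDerivAt.comp_hasDerivAt (l := f) (0 : ℝ) h3 h1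
    have h3 : HasDerivAt (fun t : ℝ => f₀ (s, z + t • v)) (fderiv ℝ f₀ (s, z) (0, v)) 0 := by
      have h3 : HasFDerivAt f₀ (fderiv ℝ f₀ (s, z)) (s, z + (0 : ℝ) • v) := by
        rw [hz0]
        exact (hf₀.differentiable (by simp) _).hasFDerivAt
      exact HasFDerivAt.comp_hasDerivAt (l := f₀) (0 : ℝ) h3 h1
    have h4 : HasDerivAt (fun t : ℝ => A.q (s, z + t • v)) (fderiv ℝ A.q (s, z) (0, v)) 0 := by
      have h3 : HasFDerivAt A.q (fderiv ℝ A.q (s, z)) (s, z + (0 : ℝ) • v) := by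
        rw [hz0]
        exact A.q_hasFDerivAt _
      exact HasFDerivAt.comp_hasDerivAt (l := A.q) (0 : ℝ) h3 h1
    have h5 : HasDerivAt (fun t : ℝ => F (A.q (s, z + t • v)))
        (fderiv ℝ F (A.q (s, z)) (fderiv ℝ A.q (s, z) (0, v))) 0 := by
      have h3 : HasFDerivAt F (fderiv ℝ F (A.q (s, z))) (A.q (s, z + (0 : ℝ) • v)) := by
        rw [hz0]
        exact (hF.differentiable (by simp) _).hasFDerivAt
      exact HasFDerivAt.comp_hasDerivAt (l := F) (0 : ℝ) h3 h4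
    have h6 := h3.add (h5.const_mul (1 - s))
    have h7 := h2.unique h6
    rw [h7]
    simp only [hP]
    rw [inner_add_left, inner_smul_left, (hpL s z hz).2.1 v hv,
      (hGQ _ (A.q_mem hz s)).2 _ (A.q_tan hz s hv)]
    simp
  · exact Prod.ext (hq0 z hz) (hp0 z hz)
  · constructor
    · rintro ⟨h1, h2⟩
      have hz := A.κ_mem _ h1
      refine ⟨A.κ w.1, hz, Prod.ext (A.κ_right _ h1) ?_⟩
      simp only [hP, sub_self, zero_smul, add_zero]
      rw [hp1 _ hz, h2]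
    · rintro ⟨z, hz, rfl⟩
      refine ⟨A.q_mem hz 1, ?_⟩
      simp only [hP, sub_self, zero_smul, add_zero]
      exact hp1 z hz

end Vale.Agent.P220.R2.H252
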