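import Vale.Agent.P220.R2.H57.B.Leaf

/-!
The interface between the leafwise isotopy and its lift to an exact isotopy.
-/

open Set Filter Topology
open scoped ContDiff Manifold

namespace Vale.Agent.P220.R2.H57

variable {E : Type} [NormedAddCommGroup E] [InnerProductSpace ℝ E] [FiniteDimensional ℝ E]

namespace Base

variable {D : Base E}

/-- A leafwise isotopy `z ↦ (φ (τ (s, z)) z.1, y (s, z))` from `z ↦ (z.1, h z)` to a graph. -/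
structure Push (Λ : D.Leaf) where
  τ : ℝ × (E × E) → ℝ
  y : ℝ × (E × E) → ℝ
  hτ : ContDiff ℝ ∞ τ
  hy : ContDiff ℝ ∞ y
  τ_zero : ∀ z ∈ D.L, τ (0, z) = 0
  y_zero : ∀ z ∈ D.L, y (0, z) = D.h z
  ne : ∀ s, ∀ z ∈ D.L, (Λ.u z).1 + fderiv ℝ τ (s, z) (0, Λ.Z z) = 0 →
    fderiv ℝ y (s, z) (0, Λ.Z z) ≠ 0
  pos : ∀ z ∈ D.L, 0 < (Λ.u z).1 + fderiv ℝ τ (1, z) (0, Λ.Z z)
  inj : ∀ s, ∀ z ∈ D.L, ∀ z' ∈ D.L, D.φ (τ (s, z)) z.1 = D.φ (τ (s, z')) z'.1 →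
    y (s, z) = y (s, z') → z = z'
  κ : E → E × E
  hκ : ContDiff ℝ ∞ κ
  κ_mem : ∀ q ∈ D.Q, κ q ∈ D.L
  κ_right : ∀ q ∈ D.Q, D.φ (τ (1, κ q)) (κ q).1 = q
  κ_left : ∀ z ∈ D.L, κ (D.φ (τ (1, z)) z.1) = z

end Base

end Vale.Agent.P220.R2.H57
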