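import Mathlib

/-!
Sard's theorem on the line.
-/

open Set Filter Topology MeasureTheory

namespace Vale.Agent.P220.R2.H252

/-- A differentiable function on the line has regular values in every interval. -/
theorem exists_regular_value {f f' : ℝ → ℝ} (hf : ∀ x, HasDerivAt f (f' x) x) {a b : ℝ}
    (hab : a < b) : ∃ t ∈ Icc a b, ∀ x, f x = t → f' x ≠ 0 := by
  set s : Set ℝ := {x | f' x = 0} with hs
  have h0 : volume (f '' s) = 0 := by
    refine addHaar_image_eq_zero_of_det_fderivWithin_eq_zero volume
      (f' := fun x => ContinuousLinearMap.toSpanSingleton ℝ (f' x)) (fun x _ => ?_) fun x hx => ?_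
    · exact (hf x).hasFDerivAt.hasFDerivWithinAt
    · have : f' x = 0 := hx
      simp [this]
  by_contra hcon
  push Not at hcon
  have h1 : Icc a b ⊆ f '' s := by
    intro t ht
    obtain ⟨x, hx, hx0⟩ := hcon t ht
    exact ⟨x, hx0, hx⟩
  have h2 := measure_mono (μ := volume) h1
  rw [h0, Real.volume_Icc] at h2
  have h3 : 0 < ENNReal.ofReal (b - a) := ENNReal.ofReal_pos.2 (sub_pos.2 hab)
  exact absurd h2 (not_le.2 h3)

end Vale.Agent.P220.R2.H252
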