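import Vale.Agent.P220.R2.H252.G.Top

/-!
The angle extends to the product of the base and the line and vanishes above the top points over
the good set.
-/

open Set Filter Topology
open scoped ContDiff Manifold

set_option linter.unusedSectionVars false

namespace Vale.Agent.P220.R2.H57

variable {E : Type} [NormedAddCommGroup E] [InnerProductSpace ℝ E] [FiniteDimensional ℝ E]

namespace Base

variable {D : Base E}

/-- A smooth angle on the product of the base and the line, for a leafwise field transverse to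
`L`, vertical far away and above the top points over the set `K`. -/
structure Fld (Λ : D.Leaf) where
  g : E × ℝ → ℝ
  hg : ContDiff ℝ ∞ g
  R : ℝ
  hR : ∀ z ∈ D.L, |D.h z| < R
  top : ∀ x : E × ℝ, R ≤ |x.2| → g x = 0
  K : Set E
  good : ∀ q ∈ D.Q, ∃ t ∈ Icc (0 : ℝ) 1, D.φ t q ∈ K
  ray : ∀ z ∈ D.L, z.1 ∈ K → (∀ z' ∈ D.L, z'.1 = z.1 → D.h z' ≤ D.h z) →
    ∀ y, D.h z ≤ y → g (z.1, y) = 0
  angle : ∀ z ∈ D.L, 0 < (Λ.u z).1 * Real.cos (g (z.1, D.h z)) +
    (Λ.u z).2 * Real.sin (g (z.1, D.h z))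

theorem exists_fld (Λ : D.Leaf) (hone : ∀ z ∈ D.L, ∀ z' ∈ D.L, ∀ t, z'.1 = D.φ t z.1 →
      ∃ σ, Λ.ζ σ z = z' ∧ Λ.T σ z = t)
    (hsurj : ∀ q ∈ D.Q, ∃ z ∈ D.L, z.1 = q) : Nonempty (Fld Λ) := by
  obtain ⟨θ, hθc, hθu, hθtop⟩ := Λ.exists_angle_top
  obtain ⟨K, hK, hKQ, hKa, hKgood⟩ := Λ.exists_good hone hsurj
  -- a bound for the height
  obtain ⟨R₀, hR₀⟩ := (D.cL.image D.h_smooth.continuous).isBounded.exists_norm_le
  have hR₀' : ∀ z ∈ D.L, |D.h z| ≤ R₀ := fun z hz => hR₀ _ ⟨z, hz, rfl⟩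
  set R : ℝ := R₀ + 1 with hR
  set TK : Set (E × E) := {z | z ∈ D.L ∧ z.1 ∈ K ∧ ∀ z' ∈ D.L, z'.1 = z.1 → D.h z' ≤ D.h z} with hTK
  have hTKc : IsCompact TK := D.cL.of_isClosed_subset (Λ.isClosed_top hK hKa) fun z hz => hz.1
  set B : Set (E × ℝ) := {x | R ≤ |x.2|} ∪ {x | ∃ z ∈ TK, z.1 = x.1 ∧ D.h z ≤ x.2} with hB
  have hBc : IsClosed B := by
    refine IsClosed.union (isClosed_le continuous_const (continuous_abs.comp continuous_snd)) ?_
    apply IsSeqClosed.isClosed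
    intro w w₀ hw hlim
    choose z hz1 hz2 hz3 using hw
    obtain ⟨a, ha, ψ, hψ, hlim2⟩ := hTKc.tendsto_subseq hz1
    have hw' := hlim.comp hψ.tendsto_atTop
    have h2 : Tendsto (fun n => (w (ψ n)).1) atTop (𝓝 w₀.1) := (continuous_fst.tendsto _).comp hw'
    have h3 : Tendsto (fun n => (w (ψ n)).2) atTop (𝓝 w₀.2) := (continuous_snd.tendsto _).comp hw'
    have h4 : Tendsto (fun n => (z (ψ n)).1) atTop (𝓝 a.1) := (continuous_fst.tendsto _).comp hlim2
    have h5 : Tendsto (fun n => D.h (z (ψ n))) atTop (𝓝 (D.h a)) :=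
      (D.h_smooth.continuous.tendsto _).comp hlim2
    refine ⟨a, ha, tendsto_nhds_unique h4 (h2.congr fun n => (hz2 _).symm), ?_⟩
    exact le_of_tendsto_of_tendsto' h5 h3 fun n => hz3 _
  set t : E × ℝ → Set ℝ := fun x => {y | (∀ z ∈ D.L, (z.1, D.h z) = x → |y - θ z| < Real.pi / 2) ∧
    (x ∈ B → y = 0)} with ht
  have hconv : ∀ x, Convex ℝ (t x) := by
    intro x
    have h1 : t x = (⋂ z ∈ {z : E × E | z ∈ D.L ∧ (z.1, D.h z) = x},
        Metric.ball (θ z) (Real.pi / 2)) ∩ {y | x ∈ B → y = 0} := by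
      ext y
      simp only [ht, mem_ofPred_eq, mem_inter_iff, mem_iInter, Metric.mem_ball, Real.dist_eq,
        and_imp]
    rw [h1]
    refine Convex.inter (convex_iInter₂ fun z _ => convex_ball _ _) ?_
    by_cases hx : x ∈ B
    · have : {y : ℝ | x ∈ B → y = 0} = {0} := by
        ext y
        simp [hx]
      rw [this]
      exact convex_singleton _
    · have : {y : ℝ | x ∈ B → y = 0} = univ := by
        ext y
        simp [hx]
      rw [this]
      exact convex_univ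
  have hpi : 0 < Real.pi / 2 := by positivity
  set Ψ : ℝ × (E × E) → E × ℝ := fun w => (w.2.1, D.h w.2) with hΨ
  have hΨc : Continuous Ψ := (continuous_fst.comp continuous_snd).prodMk
    (D.h_smooth.continuous.comp continuous_snd)
  -- a constant near a point of `L`
  have hnear : ∀ z₀ ∈ D.L, ∀ c : ℝ, |c - θ z₀| < Real.pi / 2 →
      ∀ᶠ y : E × ℝ in 𝓝 (z₀.1, D.h z₀), ∀ z ∈ D.L, (z.1, D.h z) = y → |c - θ z| < Real.pi / 2 := by
    intro z₀ hz₀ c hc
    have hN : {w : ℝ × (E × E) | w.2 ∈ D.L → |c - θ w.2| < Real.pi / 2} ∈ 𝓝 ((0 : ℝ), z₀) := by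
      have h1 : ∀ᶠ z in 𝓝 z₀, z ∈ D.L → |c - θ z| < Real.pi / 2 := by
        have h2 : ContinuousWithinAt (fun z => |c - θ z|) D.L z₀ :=
          (continuousWithinAt_const.sub (hθc z₀ hz₀)).abs
        exact eventually_nhdsWithin_iff.1 (h2.eventually (gt_mem_nhds hc))
      exact (continuous_snd.tendsto ((0 : ℝ), z₀)).eventually h1
    have h1 := near_of_inj D.cL hΨc (fun s z hz z' hz' h => D.h_inj hz hz'
      (Prod.ext_iff.1 h).1 (Prod.ext_iff.1 h).2) hz₀ hN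
    have h3 : Tendsto (fun y : E × ℝ => ((0 : ℝ), y)) (𝓝 (z₀.1, D.h z₀))
        (𝓝 ((0 : ℝ), (z₀.1, D.h z₀))) := (continuous_const.prodMk continuous_id).tendsto _
    filter_upwards [h3.eventually h1] with y hy z hz hzy
    exact hy z hz hzy hz
  have hfar : ∀ x : E × ℝ, (¬ ∃ z₀ ∈ D.L, (z₀.1, D.h z₀) = x) → ∀ᶠ y in 𝓝 x,
      ¬ ∃ z ∈ D.L, (z.1, D.h z) = y := by
    intro x hx
    have h1 := isClosed_family (P := ℝ) D.cL hΨc
    have h2 : IsClosed {y : E × ℝ | ∃ z ∈ D.L, (z.1, D.h z) = y} := by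
      have h3 : Continuous fun y : E × ℝ => ((0 : ℝ), y) := by fun_prop
      exact h1.preimage h3
    exact h2.isOpen_compl.mem_nhds hx
  have hloc : ∀ x : E × ℝ, ∃ c : ℝ, ∀ᶠ y in 𝓝 x, c ∈ t y := by
    intro x
    by_cases hx : x ∈ B
    · refine ⟨0, ?_⟩
      by_cases hxS : ∃ z₀ ∈ D.L, (z₀.1, D.h z₀) = x
      · obtain ⟨z₀, hz₀, hz₀x⟩ := hxS
        have h1 : z₀ ∈ TK := by
          rcases hx with hx | hx
          · exfalso
            have hx' : R ≤ |x.2| := hx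
            rw [← hz₀x] at hx'
            have := hR₀' z₀ hz₀
            simp only at hx'
            linarith
          · obtain ⟨z, hz, hz1, hz2⟩ := hx
            rw [← hz₀x] at hz1 hz2
            simp only at hz1 hz2
            have h2 : D.h z₀ ≤ D.h z := hz.2.2 z₀ hz₀ hz1.symm
            have h3 : z = z₀ := D.h_inj hz.1 hz₀ hz1 (le_antisymm hz2 h2)
            rw [← h3]
            exact hz
        have h2 : |0 - θ z₀| < Real.pi / 2 := by
          rw [zero_sub, abs_neg]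
          exact hθtop z₀ hz₀ (hKa z₀ hz₀ h1.2.1) h1.2.2
        have h3 := hnear z₀ hz₀ 0 h2
        rw [hz₀x] at h3
        filter_upwards [h3] with y hy
        exact ⟨hy, fun _ => rfl⟩
      · filter_upwards [hfar x hxS] with y hy
        exact ⟨fun z hz hzy => absurd ⟨z, hz, hzy⟩ hy, fun _ => rfl⟩
    · have hxB : ∀ᶠ y in 𝓝 x, y ∉ B := hBc.isOpen_compl.mem_nhds hx
      by_cases hxS : ∃ z₀ ∈ D.L, (z₀.1, D.h z₀) = x
      · obtain ⟨z₀, hz₀, hz₀x⟩ := hxS
        refine ⟨θ z₀, ?_⟩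
        have h3 := hnear z₀ hz₀ (θ z₀) (by rw [sub_self, abs_zero]; exact hpi)
        rw [hz₀x] at h3
        filter_upwards [h3, hxB] with y hy hyB
        exact ⟨hy, fun h => absurd h hyB⟩
      · refine ⟨0, ?_⟩
        filter_upwards [hfar x hxS, hxB] with y hy hyB
        exact ⟨fun z hz hzy => absurd ⟨z, hz, hzy⟩ hy, fun h => absurd h hyB⟩
  obtain ⟨g, hg⟩ := exists_contMDiffMap_forall_mem_convex_of_local_const (M := E × ℝ)
    (I := 𝓘(ℝ, E × ℝ)) (n := (⊤ : ℕ∞)) hconv hloc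
  refine ⟨⟨g, g.contMDiff.contDiff, R, fun z hz => ?_, fun x hx => ?_, K, hKgood,
    fun z hz hzK htop y hy => ?_, fun z hz => ?_⟩⟩
  · have := hR₀' z hz
    linarith
  · exact (hg x).2 (Or.inl hx)
  · exact (hg (z.1, y)).2 (Or.inr ⟨z, ⟨hz, hzK, htop⟩, rfl, hy⟩)
  · have h1 := (hg (z.1, D.h z)).1 z hz rfl
    rw [hθu z hz]
    simp only
    have h2 : Real.cos (θ z) * Real.cos (g (z.1, D.h z)) +
        Real.sin (θ z) * Real.sin (g (z.1, D.h z)) = Real.cos (θ z - g (z.1, D.h z)) := by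
      rw [Real.cos_sub]
    rw [h2]
    have h3 := abs_lt.1 h1
    exact Real.cos_pos_of_mem_Ioo ⟨by linarith, by linarith⟩

end Base

end Vale.Agent.P220.R2.H57
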