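import Vale.Agent.P220.R2.H252.G.Angle
import Vale.Agent.P220.R2.H252.G.Sard

/-!
Good base points and the compact set of top points over them.
-/

open Set Filter Topology
open scoped ContDiff Manifold

set_option linter.unusedSectionVars false

namespace Vale.Agent.P220.R2.H57

/-- two points of a retract near `w` whose difference is in the kernel of `dr_w` are equal -/
theorem isRet_inj' {F : Type} [NormedAddCommGroup F] [NormedSpace ℝ F] [FiniteDimensional ℝ F]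
    {S U : Set F} {r : F → F} (hr : IsRet S U r) (w : F) :
    ∃ O ∈ 𝓝 w, ∀ a ∈ O, ∀ b ∈ O, a ∈ S → b ∈ S → fderiv ℝ r w (a - b) = 0 → a = b := by
  have h1 : HasStrictFDerivAt r (fderiv ℝ r w) w :=
    hr.smooth.contDiffAt.hasStrictFDerivAt (by simp)
  have h2 := h1.isLittleO.def (show (0 : ℝ) < 1 / 2 by norm_num)
  rw [nhds_prod_eq] at h2
  obtain ⟨O, hO, hO2⟩ := eventually_prod_self_iff'.1 h2
  refine ⟨O, hO, fun a ha b hb haS hbS hab => ?_⟩
  have h3 := hO2 a ha b hb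
  simp only at h3
  rw [hr.fix a haS, hr.fix b hbS, hab, sub_zero] at h3
  have h4 : ‖a - b‖ = 0 := by
    have := norm_nonneg (a - b)
    linarith
  exact sub_eq_zero.1 (norm_eq_zero.1 h4)

variable {E : Type} [NormedAddCommGroup E] [InnerProductSpace ℝ E] [FiniteDimensional ℝ E]

namespace Base

/-- at a transverse point the projection of `L` is open -/
theorem open_near {D : Base E} {z : E × E} (hz : z ∈ D.L)
    (htr : ∀ v ∈ Tn D.ρ z, v.1 = 0 → v = 0) {N : Set (E × E)} (hN : N ∈ 𝓝 z) :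
    ∃ O ∈ 𝓝 z.1, ∀ q ∈ O, q ∈ D.Q → ∃ y ∈ D.L, y ∈ N ∧ y.1 = q := by
  have : CompleteSpace E := FiniteDimensional.complete ℝ E
  set w := z.1 with hw
  have hwQ : w ∈ D.Q := D.sub z hz
  -- every tangent vector of `Q` is the projection of a tangent vector of `L`
  have hsurj : ∀ a ∈ Tn D.r w, ∃ v ∈ Tn D.ρ z, v.1 = a := by
    let B : Tn D.ρ z →ₗ[ℝ] Tn D.r w :=
      { toFun := fun v => ⟨v.1.1, D.tan_fst hz v.2⟩
        map_add' := fun _ _ => rfl
        map_smul' := fun _ _ => rfl }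
    have hB : Function.Injective B := by
      rw [injective_iff_map_eq_zero]
      intro v hv
      have h1 : v.1.1 = 0 := congrArg Subtype.val hv
      exact Subtype.ext (htr v.1 v.2 h1)
    have hfr : Module.finrank ℝ (Tn D.ρ z) = Module.finrank ℝ (Tn D.r w) := by
      rw [D.dL z hz, D.dQ w hwQ]
    have hB2 := (LinearMap.injective_iff_surjective_of_finrank_eq_finrank hfr).1 hB
    intro a ha
    obtain ⟨v, hv⟩ := hB2 ⟨a, ha⟩
    exact ⟨v.1, v.2, congrArg Subtype.val hv⟩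
  obtain ⟨O₁, hO₁, hinj⟩ := isRet_inj' D.hQ w
  -- the auxiliary map
  set A := fderiv ℝ D.r w with hA
  set F : (E × E) × E → E := fun p => (D.ρ p.1).1 + (p.2 - A p.2) with hF
  have hFs : ContDiff ℝ ∞ F :=
    (contDiff_fst.comp (D.hL.smooth.comp contDiff_fst)).add
      (contDiff_snd.sub (A.contDiff.comp contDiff_snd))
  have hF0 : F (z, 0) = w := by
    simp only [hF, map_zero, sub_zero, add_zero]
    rw [D.hL.fix z hz]
  have hFd : HasFDerivAt F (((ContinuousLinearMap.fst ℝ E E).comp ((fderiv ℝ D.ρ z).comp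
      (ContinuousLinearMap.fst ℝ (E × E) E))) + (ContinuousLinearMap.snd ℝ (E × E) E -
        A.comp (ContinuousLinearMap.snd ℝ (E × E) E))) (z, 0) := by
    have h1 : HasFDerivAt (fun p : (E × E) × E => D.ρ p.1) ((fderiv ℝ D.ρ z).comp
        (ContinuousLinearMap.fst ℝ (E × E) E)) (z, 0) := by
      have h0 : HasFDerivAt D.ρ (fderiv ℝ D.ρ z) ((z, (0 : E)) : (E × E) × E).1 :=
        D.hL.hasFDerivAt z
      exact h0.comp (z, (0 : E)) hasFDerivAt_fst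
    have h2 : HasFDerivAt (fun p : (E × E) × E => A p.2) (A.comp
        (ContinuousLinearMap.snd ℝ (E × E) E)) (z, 0) := by
      have h0 : HasFDerivAt A A ((z, (0 : E)) : (E × E) × E).2 := A.hasFDerivAt
      exact h0.comp (z, (0 : E)) hasFDerivAt_snd
    have h3 : HasFDerivAt (fun p : (E × E) × E => (D.ρ p.1).1) ((ContinuousLinearMap.fst ℝ E E).comp
        ((fderiv ℝ D.ρ z).comp (ContinuousLinearMap.fst ℝ (E × E) E))) (z, 0) := by
      exact hasFDerivAt_fst.comp (z, (0 : E)) h1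
    exact h3.add (hasFDerivAt_snd.sub h2)
  have hrange : (fderiv ℝ F (z, 0)).range = ⊤ := by
    rw [hFd.fderiv, LinearMap.range_eq_top]
    intro a
    obtain ⟨v, hv, hva⟩ := hsurj (A a) (D.hQ.fderiv_mem hwQ a)
    refine ⟨(v, a), ?_⟩
    show (fderiv ℝ D.ρ z v).1 + (a - A a) = a
    rw [show fderiv ℝ D.ρ z v = v from hv, hva]
    abel
  have hmap := (hFs.contDiffAt.hasStrictFDerivAt (x := (z, 0)) (by simp)).map_nhds_eq_of_surj hrange
  rw [hF0] at hmap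
  -- points near `(z, 0)`
  have hV : {p : (E × E) × E | p.1 ∈ D.UL ∧ (D.ρ p.1).1 ∈ O₁ ∧ D.ρ p.1 ∈ N} ∈
      𝓝 ((z, 0) : (E × E) × E) := by
    have hcρ : Continuous fun p : (E × E) × E => D.ρ p.1 := D.hL.smooth.continuous.comp continuous_fst
    refine inter_mem ?_ (inter_mem ?_ ?_)
    · exact continuous_fst.continuousAt.preimage_mem_nhds (D.hL.isOpen.mem_nhds (D.hL.sub hz))
    · have hc : Continuous fun p : (E × E) × E => (D.ρ p.1).1 := continuous_fst.comp hcρ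
      refine hc.continuousAt.preimage_mem_nhds ?_
      show O₁ ∈ 𝓝 (D.ρ z).1
      rw [D.hL.fix z hz]
      exact hO₁
    · refine hcρ.continuousAt.preimage_mem_nhds ?_
      show N ∈ 𝓝 (D.ρ z)
      rw [D.hL.fix z hz]
      exact hN
  have hO₂ : F '' {p : (E × E) × E | p.1 ∈ D.UL ∧ (D.ρ p.1).1 ∈ O₁ ∧ D.ρ p.1 ∈ N} ∈ 𝓝 w := by
    rw [← hmap]
    exact image_mem_map hV
  refine ⟨_, inter_mem hO₁ hO₂, ?_⟩
  rintro q ⟨hq1, ⟨⟨y, x⟩, ⟨hy1, hy2, hy3⟩, hyq⟩⟩ hqQ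
  refine ⟨D.ρ y, D.hL.maps y hy1, hy3, ?_⟩
  refine hinj _ hy2 _ hq1 (D.sub _ (D.hL.maps y hy1)) hqQ ?_
  have h1 : (D.ρ y).1 + (x - A x) = q := hyq
  have h2 : (D.ρ y).1 - q = -(x - A x) := by
    rw [← h1]
    abel
  rw [h2, map_neg, map_sub, hA, D.hQ.fderiv_fderiv hwQ, sub_self, neg_zero]

variable {D : Base E}

theorem exists_top (hsurj : ∀ q ∈ D.Q, ∃ z ∈ D.L, z.1 = q) {q : E} (hq : q ∈ D.Q) :
    ∃ z ∈ D.L, z.1 = q ∧ ∀ z' ∈ D.L, z'.1 = z.1 → D.h z' ≤ D.h z := by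
  obtain ⟨z₀, hz₀, hzq⟩ := hsurj q hq
  have hc : IsCompact (D.L ∩ {z | z.1 = q}) :=
    D.cL.inter_right (isClosed_eq continuous_fst continuous_const)
  obtain ⟨z, ⟨hz, hz1⟩, hmax⟩ := hc.exists_isMaxOn ⟨z₀, hz₀, hzq⟩ D.h_smooth.continuous.continuousOn
  have hz1' : z.1 = q := hz1
  exact ⟨z, hz, hz1', fun z' hz' h => hmax ⟨hz', show z'.1 = q by rw [h, hz1']⟩⟩

namespace Leaf

variable (Λ : D.Leaf)

theorem transverse {z : E × E} (hz : z ∈ D.L) (ha : (Λ.u z).1 ≠ 0) :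
    ∀ v ∈ Tn D.ρ z, v.1 = 0 → v = 0 := by
  intro v hv h0
  obtain ⟨l, hl, hl'⟩ := Λ.leafwise hz hv (c := 0) (by rw [h0, zero_smul])
  rcases mul_eq_zero.1 hl.symm with h | h
  · rw [hl', h, zero_smul]
  · exact absurd h ha

/-- The set of top points over a good set is closed. -/
theorem isClosed_top {K : Set E} (hK : IsClosed K)
    (hgood : ∀ z ∈ D.L, z.1 ∈ K → (Λ.u z).1 ≠ 0) :
    IsClosed {z | z ∈ D.L ∧ z.1 ∈ K ∧ ∀ z' ∈ D.L, z'.1 = z.1 → D.h z' ≤ D.h z} := by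
  apply IsSeqClosed.isClosed
  intro x z hx hlim
  have hz : z ∈ D.L := D.hL.isClosed.mem_of_tendsto hlim (Eventually.of_forall fun n => (hx n).1)
  have hlim1 : Tendsto (fun n => (x n).1) atTop (𝓝 z.1) := (continuous_fst.tendsto z).comp hlim
  have hzK : z.1 ∈ K := hK.mem_of_tendsto hlim1 (Eventually.of_forall fun n => (hx n).2.1)
  have hlimh : Tendsto (fun n => D.h (x n)) atTop (𝓝 (D.h z)) :=
    (D.h_smooth.continuous.tendsto z).comp hlim
  refine ⟨hz, hzK, fun z' hz' h => ?_⟩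
  by_contra hcon
  push Not at hcon
  obtain ⟨m, hm1, hm2⟩ := exists_between hcon
  have hN : {y | m < D.h y} ∈ 𝓝 z' := D.h_smooth.continuous.continuousAt.eventually (lt_mem_nhds hm2)
  obtain ⟨O, hO, hO2⟩ := open_near hz' (Λ.transverse hz' (hgood z' hz' (by rw [h]; exact hzK))) hN
  rw [h] at hO
  obtain ⟨n, hn1, hn2⟩ := ((hlim1.eventually_mem hO).and
    (hlimh.eventually (gt_mem_nhds hm1))).exists
  obtain ⟨y, hy, hyN, hyq⟩ := hO2 _ hn1 (D.sub _ (hx n).1)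
  have h1 := (hx n).2.2 y hy hyq
  have h2 : m < D.h y := hyN
  linarith

/-- There is a compact set of good base points that is met by every orbit in bounded time. -/
theorem exists_good (hone : ∀ z ∈ D.L, ∀ z' ∈ D.L, ∀ t, z'.1 = D.φ t z.1 →
      ∃ σ, Λ.ζ σ z = z' ∧ Λ.T σ z = t)
    (hsurj : ∀ q ∈ D.Q, ∃ z ∈ D.L, z.1 = q) :
    ∃ K : Set E, IsClosed K ∧ K ⊆ D.Q ∧ (∀ z ∈ D.L, z.1 ∈ K → (Λ.u z).1 ≠ 0) ∧
      ∀ q ∈ D.Q, ∃ t ∈ Icc (0 : ℝ) 1, D.φ t q ∈ K := by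
  set B : Set E := Prod.fst '' {z | z ∈ D.L ∧ (Λ.u z).1 = 0} with hB
  have hBc : IsClosed B := by
    have h1 : IsCompact {z | z ∈ D.L ∧ (Λ.u z).1 = 0} :=
      D.cL.inter_right (isClosed_eq (continuous_fst.comp Λ.cont_u) continuous_const)
    exact (h1.image continuous_fst).isClosed
  -- every orbit leaves `B`
  have hleave : ∀ q ∈ D.Q, ∃ t ∈ Icc (0 : ℝ) 1, D.φ t q ∉ B := by
    intro q hq
    obtain ⟨z, hz, hzq⟩ := hsurj q hq
    obtain ⟨t, ht, ht2⟩ := H252.exists_regular_value (fun σ => Λ.hasDerivAt_T hz σ)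
      (show (0 : ℝ) < 1 by norm_num)
    refine ⟨t, ht, ?_⟩
    rintro ⟨z', ⟨hz', ha⟩, hz'q⟩
    obtain ⟨σ, hσ, hσT⟩ := hone z hz z' hz' t (by rw [hz'q, hzq])
    exact ht2 σ hσT (by rw [hσ]; exact ha)
  obtain ⟨δ, hδ, hδc, hδr⟩ := hBc.isOpen_compl.exists_contDiff_support_eq (n := 0)
  have hc : Continuous δ := hδc.continuous
  have h0 : ∀ x, δ x = 0 ↔ x ∈ B := by
    intro x
    have h1 : x ∈ Function.support δ ↔ x ∈ Bᶜ := by rw [hδ]
    rw [Function.mem_support, mem_compl_iff] at h1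
    exact not_iff_not.1 h1
  have hpos : ∀ x, 0 ≤ δ x := fun x => (hδr ⟨x, rfl⟩).1
  obtain ⟨ε, hε, hεq⟩ : ∃ ε > 0, ∀ q ∈ D.Q, ∃ t ∈ Icc (0 : ℝ) 1, ε ≤ δ (D.φ t q) := by
    by_contra hcon
    push Not at hcon
    have h1 : ∀ n : ℕ, ∃ q ∈ D.Q, ∀ t ∈ Icc (0 : ℝ) 1, δ (D.φ t q) < 1 / ((n : ℝ) + 1) :=
      fun n => hcon (1 / ((n : ℝ) + 1)) (by positivity)
    choose q hq hqN using h1
    obtain ⟨a, ha, ψ, hψ, hlim⟩ := D.cQ.tendsto_subseq hq
    obtain ⟨t, ht, htN⟩ := hleave a ha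
    have h2 : Tendsto (fun n => δ (D.φ t (q (ψ n)))) atTop (𝓝 (δ (D.φ t a))) :=
      ((hc.comp (D.hφ.smooth_map t).continuous).tendsto a).comp hlim
    have h3 : Tendsto (fun n => 1 / (((ψ n : ℕ) : ℝ) + 1)) atTop (𝓝 0) :=
      tendsto_one_div_add_atTop_nhds_zero_nat.comp hψ.tendsto_atTop
    have h4 : δ (D.φ t a) ≤ 0 := le_of_tendsto_of_tendsto' h2 h3 fun n => (hqN (ψ n) t ht).le
    exact htN ((h0 _).1 (le_antisymm h4 (hpos _)))
  refine ⟨{x | x ∈ D.Q ∧ ε ≤ δ x}, D.hQ.isClosed.inter (isClosed_le continuous_const hc),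
    fun x hx => hx.1, fun z hz hzK ha => ?_, fun q hq => ?_⟩
  · have h1 : z.1 ∈ B := ⟨z, ⟨hz, ha⟩, rfl⟩
    have h2 := hzK.2
    rw [(h0 _).2 h1] at h2
    linarith
  · obtain ⟨t, ht, ht2⟩ := hεq q hq
    exact ⟨t, ht, D.hQ.flow_mem D.hX D.hφ D.tX hq t, ht2⟩

end Leaf

end Base

end Vale.Agent.P220.R2.H57
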